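import Vale.Agent.P237.Defs

namespace Vale.Agent.P237

open MeasureTheory

theorem vol_closedBall {n : ℕ} (x : E n) {r : ℝ} (hr : 0 ≤ r) :
    volume (Metric.closedBall x r) = ENNReal.ofReal (r ^ n * kappa n) := by
  rw [Measure.addHaar_closedBall' _ _ hr, finrank_euclideanSpace_fin, kappa,
    ENNReal.ofReal_mul (by positivity), ENNReal.ofReal_toReal measure_closedBall_lt_top.ne]

/-- few half-spaces at distance at least one leave half of the ball of radius `√ρ` -/
theorem ball_ge {n N : ℕ} {ρ : ℝ} (hρ : 1 < ρ) (hN : 2 * (N : ℝ) ≤ √(ρ / (ρ - 1)) ^ n)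
    (u : Fin N → E n)
    (hu : ∀ j, ‖u j‖ ≤ 1) :
    ENNReal.ofReal (1 / 2 * √ρ ^ n * kappa n) ≤ volume (pol u fun _ => 1) := by
  have hk : 0 ≤ kappa n := ENNReal.toReal_nonneg
  have hsub : Metric.closedBall (0 : E n) √ρ ⊆
      (pol u fun _ => 1) ∪ ⋃ j, Metric.closedBall (u j) √(ρ - 1) := by
    intro x hx
    by_cases h : x ∈ pol u fun _ => 1
    · exact Or.inl h
    · right
      obtain ⟨j, hj⟩ := not_forall.1 h
      refine Set.mem_iUnion.2 ⟨j, ?_⟩
      rw [mem_closedBall_zero_iff] at hx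
      have h1 : ‖x‖ ^ 2 ≤ ρ := by
        have := pow_le_pow_left₀ (norm_nonneg _) hx 2
        rwa [Real.sq_sqrt (by linarith)] at this
      have h2 : ‖u j‖ ^ 2 ≤ 1 := pow_le_one₀ (norm_nonneg _) (hu j)
      rw [mem_closedBall_iff_norm]
      refine Real.le_sqrt_of_sq_le ?_
      rw [norm_sub_sq_real, real_inner_comm]
      push Not at hj
      linarith
  have h1 : volume (Metric.closedBall (0 : E n) √ρ) ≤
      volume (pol u fun _ => 1) + ∑ j, volume (Metric.closedBall (u j) √(ρ - 1)) :=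
    (measure_mono hsub).trans ((measure_union_le _ _).trans
      (add_le_add le_rfl (measure_iUnion_fintype_le _ _)))
  have h2 : (N : ℝ) * √(ρ - 1) ^ n ≤ 1 / 2 * √ρ ^ n := by
    have h3 : √ρ = √(ρ / (ρ - 1)) * √(ρ - 1) := by
      rw [← Real.sqrt_mul (div_nonneg (by linarith) (by linarith)),
        div_mul_cancel₀ _ (by linarith)]
    have h6 : (0 : ℝ) ≤ √(ρ - 1) ^ n := by positivity
    rw [h3, mul_pow]
    nlinarith
  simp only [vol_closedBall _ (Real.sqrt_nonneg _), Finset.sum_const, Finset.card_univ,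
    Fintype.card_fin, nsmul_eq_mul] at h1
  rw [← ENNReal.ofReal_natCast, ← ENNReal.ofReal_mul (Nat.cast_nonneg _)] at h1
  have h7 : ENNReal.ofReal (N * (√(ρ - 1) ^ n * kappa n)) ≤ ENNReal.ofReal (1 / 2 * √ρ ^ n * kappa n) :=
    ENNReal.ofReal_le_ofReal (by rw [← mul_assoc]; exact mul_le_mul_of_nonneg_right h2 hk)
  have h8 : ENNReal.ofReal (√ρ ^ n * kappa n) =
      ENNReal.ofReal (1 / 2 * √ρ ^ n * kappa n) + ENNReal.ofReal (1 / 2 * √ρ ^ n * kappa n) := by
    rw [← ENNReal.ofReal_add (by positivity) (by positivity)]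
    congr 1
    ring
  rw [h8] at h1
  exact ENNReal.le_of_add_le_add_right ENNReal.ofReal_ne_top (h1.trans (add_le_add le_rfl h7))

end Vale.Agent.P237
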