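import Vale.Agent.P237.Defs

namespace Vale.Agent.P237

open MeasureTheory Pointwise

namespace ConeVA

/-- the truncated cone on which `j` is the least index maximising the pairing -/
def C {n N : ℕ} (w : Fin N → E n) (j : Fin N) (c : ℝ) : Set (E n) :=
  {x | (∀ i, inner ℝ (w i) x ≤ inner ℝ (w j) x) ∧
    (∀ i, i < j → inner ℝ (w i) x < inner ℝ (w j) x) ∧ inner ℝ (w j) x ≤ c}

theorem meas {n N : ℕ} (w : Fin N → E n) (j : Fin N) (c : ℝ) : MeasurableSet (C w j c) := by
  have hm : ∀ i, Measurable fun x : E n => inner ℝ (w i) x := fun i =>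
    (by fun_prop : Continuous fun x : E n => inner ℝ (w i) x).measurable
  have h1 : MeasurableSet {x : E n | ∀ i, inner ℝ (w i) x ≤ inner ℝ (w j) x} := by
    have : {x : E n | ∀ i, inner ℝ (w i) x ≤ inner ℝ (w j) x} =
        ⋂ i, {x : E n | inner ℝ (w i) x ≤ inner ℝ (w j) x} := by
      ext x; simp
    rw [this]
    exact MeasurableSet.iInter fun i => measurableSet_le (hm i) (hm j)
  have h2 : MeasurableSet {x : E n | ∀ i, i < j → inner ℝ (w i) x < inner ℝ (w j) x} := by
    have : {x : E n | ∀ i, i < j → inner ℝ (w i) x < inner ℝ (w j) x} =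
        ⋂ i, ⋂ (_ : i < j), {x : E n | inner ℝ (w i) x < inner ℝ (w j) x} := by
      ext x; simp
    rw [this]
    exact MeasurableSet.iInter fun i => MeasurableSet.iInter fun _ =>
      measurableSet_lt (hm i) (hm j)
  have h3 : MeasurableSet {x : E n | inner ℝ (w j) x ≤ c} :=
    measurableSet_le (hm j) measurable_const
  exact h1.inter (h2.inter h3)

theorem smul_eq {n N : ℕ} (w : Fin N → E n) (j : Fin N) {c : ℝ} (hc : 0 < c) :
    C w j c = c • C w j 1 := by
  ext x
  rw [Set.mem_smul_set_iff_inv_smul_mem₀ hc.ne']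
  have hi : 0 < c⁻¹ := inv_pos.mpr hc
  simp only [C, Set.mem_setOf_eq, inner_smul_right]
  refine and_congr (forall_congr' fun i => ?_) (and_congr (forall_congr' fun i =>
    imp_congr_right fun _ => ?_) ?_)
  · exact (mul_le_mul_iff_right₀ hi).symm
  · exact (mul_lt_mul_iff_right₀ hi).symm
  · rw [inv_mul_le_iff₀ hc, mul_one]

theorem vol {n N : ℕ} (w : Fin N → E n) (j : Fin N) {c : ℝ} (hc : 0 < c) :
    volume (C w j c) = ENNReal.ofReal (c ^ n) * volume (C w j 1) := by
  rw [smul_eq w j hc, Measure.addHaar_smul, finrank_euclideanSpace_fin,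
    abs_of_pos (pow_pos hc n)]

theorem disj {n N : ℕ} (w : Fin N → E n) {i j : Fin N} (hij : i ≠ j) (c d : ℝ) :
    Disjoint (C w i c) (C w j d) := by
  rw [Set.disjoint_left]
  intro x hi hj
  rcases lt_or_gt_of_ne hij with h | h
  · exact absurd (hj.2.1 i h) (not_lt.mpr (hi.1 j))
  · exact absurd (hi.2.1 j h) (not_lt.mpr (hj.1 i))

theorem cover {n N : ℕ} (hN : 0 < N) (w : Fin N → E n) (x : E n) :
    ∃ j, (∀ i, inner ℝ (w i) x ≤ inner ℝ (w j) x) ∧
      (∀ i, i < j → inner ℝ (w i) x < inner ℝ (w j) x) := by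
  classical
  haveI : Nonempty (Fin N) := ⟨⟨0, hN⟩⟩
  obtain ⟨m, hm⟩ := Finite.exists_max fun i : Fin N => inner ℝ (w i) x
  let S : Finset (Fin N) := Finset.univ.filter fun j => ∀ i, inner ℝ (w i) x ≤ inner ℝ (w j) x
  have hS : S.Nonempty := ⟨m, by simp only [S, Finset.mem_filter, Finset.mem_univ, true_and]; exact hm⟩
  have hmem := S.min'_mem hS
  simp only [S, Finset.mem_filter, Finset.mem_univ, true_and] at hmem
  refine ⟨S.min' hS, hmem, fun i hi => ?_⟩
  by_contra hcon
  have hle := not_lt.mp hcon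
  have : i ∈ S := by
    simp only [S, Finset.mem_filter, Finset.mem_univ, true_and]
    exact fun k => (hmem k).trans hle
  exact absurd (S.min'_le i this) (not_le.mpr hi)

theorem sub_pol {n N : ℕ} (w : Fin N → E n) (j : Fin N) :
    C w j 1 ⊆ pol w fun _ => 1 := fun _ hx i => (hx.1 i).trans hx.2.2

end ConeVA

open ConeVA in
theorem exists_cone {n N : ℕ} (hN : 0 < N) (w : Fin N → E n)
    (hK : IsCompact (pol w fun _ => 1)) : ∃ V, Cone w V := by
  have hfin : ∀ j, volume (C w j 1) ≠ ⊤ := fun j =>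
    ne_top_of_le_ne_top hK.measure_lt_top.ne (measure_mono (sub_pol w j))
  have hV : ∀ j, 0 ≤ (volume (C w j 1)).toReal := fun j => ENNReal.toReal_nonneg
  have hvol : ∀ j c, 0 < c → volume (C w j c) =
      ENNReal.ofReal (c ^ n * (volume (C w j 1)).toReal) := by
    intro j c hc
    rw [vol w j hc, ENNReal.ofReal_mul (pow_pos hc n).le, ENNReal.ofReal_toReal (hfin j)]
  refine ⟨fun j => (volume (C w j 1)).toReal, hV, ?_, ?_, ?_⟩
  · have : (pol w fun _ => 1) = ⋃ j, C w j 1 := by
      apply Set.Subset.antisymm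
      · intro x hx
        obtain ⟨j, h1, h2⟩ := cover hN w x
        exact Set.mem_iUnion.mpr ⟨j, h1, h2, hx j⟩
      · exact Set.iUnion_subset fun j => sub_pol w j
    rw [this, measure_iUnion (fun i j hij => disj w hij 1 1) (fun j => meas w j 1),
      tsum_fintype, ENNReal.ofReal_sum_of_nonneg fun j _ => hV j]
    exact Finset.sum_congr rfl fun j _ => (ENNReal.ofReal_toReal (hfin j)).symm
  · intro r hr
    have : pol w r ⊆ ⋃ j, C w j (r j) := by
      intro x hx
      obtain ⟨j, h1, h2⟩ := cover hN w x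
      exact Set.mem_iUnion.mpr ⟨j, h1, h2, hx j⟩
    refine (measure_mono this).trans ((measure_iUnion_fintype_le _ _).trans (le_of_eq ?_))
    rw [ENNReal.ofReal_sum_of_nonneg fun j _ => mul_nonneg (pow_pos (hr j) n).le (hV j)]
    exact Finset.sum_congr rfl fun j _ => hvol j _ (hr j)
  · intro r hr hr1
    have hsub : (⋃ j, C w j 1 \ C w j (r j)) ⊆
        {x | x ∈ pol w (fun _ => 1) ∧ ∃ j, r j < inner ℝ (w j) x} := by
      intro x hx
      obtain ⟨j, h1, h2⟩ := Set.mem_iUnion.mp hx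
      refine ⟨sub_pol w j h1, j, ?_⟩
      by_contra hcon
      exact h2 ⟨h1.1, h1.2.1, not_lt.mp hcon⟩
    refine le_trans (le_of_eq ?_) (measure_mono hsub)
    have hp : ∀ j, r j ^ n ≤ 1 := fun j => pow_le_one₀ (hr j).le (hr1 j)
    rw [measure_iUnion (fun i j hij =>
        (disj w hij 1 1).mono Set.diff_subset Set.diff_subset)
        (fun j => (meas w j 1).diff (meas w j _)), tsum_fintype,
      ENNReal.ofReal_sum_of_nonneg fun j _ => mul_nonneg (sub_nonneg.mpr (hp j)) (hV j)]
    refine Finset.sum_congr rfl fun j _ => ?_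
    have hs : C w j (r j) ⊆ C w j 1 := fun x hx => ⟨hx.1, hx.2.1, hx.2.2.trans (hr1 j)⟩
    rw [measure_diff hs (meas w j _).nullMeasurableSet
      (ne_top_of_le_ne_top (hfin j) (measure_mono hs)), hvol j _ (hr j), sub_mul, one_mul,
      ENNReal.ofReal_sub _ (mul_nonneg (pow_pos (hr j) n).le (hV j)),
      ENNReal.ofReal_toReal (hfin j)]

end Vale.Agent.P237
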