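import Vale.Agent.P237.Defs

namespace Vale.Agent.P237

open MeasureTheory

theorem const_kappa {m : ℕ} (hm : 1 ≤ m) :
    kappa m = √Real.pi ^ m / Real.Gamma (m / 2 + 1) := by
  haveI : Nonempty (Fin m) := ⟨⟨0, hm⟩⟩
  have hG : 0 < Real.Gamma ((m : ℝ) / 2 + 1) := Real.Gamma_pos_of_pos (by positivity)
  rw [kappa, EuclideanSpace.volume_closedBall, Fintype.card_fin, ENNReal.ofReal_one, one_pow,
    one_mul, ENNReal.toReal_ofReal (by positivity)]

theorem const_pow (n : ℕ) : ((n : ℝ) + 2) ^ n ≤ Real.exp 1 ^ 2 * (n : ℝ) ^ n := by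
  rcases Nat.eq_zero_or_pos n with rfl | hn
  · have := Real.add_one_le_exp 1
    simp only [pow_zero, mul_one]
    nlinarith
  · have hn' : (0 : ℝ) < n := by exact_mod_cast hn
    have h1 : (n : ℝ) + 2 ≤ Real.exp (2 / n) * n := by
      have h := mul_le_mul_of_nonneg_right (Real.add_one_le_exp (2 / (n : ℝ))) hn'.le
      have e : (2 / (n : ℝ) + 1) * n = n + 2 := by field_simp; ring
      rwa [e] at h
    have h2 := pow_le_pow_left₀ (by positivity) h1 n
    have e : Real.exp (2 / n) ^ n = Real.exp 1 ^ 2 := by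
      rw [← Real.exp_nat_mul, ← Real.exp_nat_mul]
      congr 1
      push_cast
      field_simp
    rwa [mul_pow, e] at h2

theorem const_gamma_low (n : ℕ) :
    ((n : ℝ) / (2 * Real.exp 1)) ^ n ≤ Real.Gamma (n / 2 + 1) ^ 2 := by
  have he : 2 ≤ Real.exp 1 := by linarith [Real.add_one_le_exp 1]
  induction n using Nat.twoStepInduction with
  | zero => simp
  | one =>
    have h1 : Real.Gamma (((1 : ℕ) : ℝ) / 2 + 1) = 1 / 2 * √Real.pi := by
      rw [Nat.cast_one, Real.Gamma_add_one (by norm_num), Real.Gamma_one_half_eq]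
    rw [h1, mul_pow, Real.sq_sqrt Real.pi_pos.le, pow_one, Nat.cast_one,
      div_le_iff₀ (by positivity)]
    nlinarith [Real.pi_gt_three]
  | more n ih _ =>
    have h1 : Real.Gamma (((n + 2 : ℕ) : ℝ) / 2 + 1) =
        ((n : ℝ) / 2 + 1) * Real.Gamma (n / 2 + 1) := by
      rw [← Real.Gamma_add_one (by positivity)]
      congr 1
      push_cast
      ring
    rw [h1, mul_pow]
    refine le_trans ?_ (mul_le_mul_of_nonneg_left ih (by positivity))
    have h2 := const_pow n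
    have e1 : (((n + 2 : ℕ) : ℝ) / (2 * Real.exp 1)) ^ (n + 2) =
        ((n : ℝ) / 2 + 1) ^ 2 * (((n : ℝ) + 2) ^ n / (Real.exp 1 ^ 2 * (2 * Real.exp 1) ^ n)) := by
      push_cast
      rw [pow_add, div_pow, div_pow]
      field_simp
    rw [e1]
    refine mul_le_mul_of_nonneg_left ?_ (by positivity)
    rw [div_pow, div_le_div_iff₀ (by positivity) (by positivity)]
    have h3 := mul_le_mul_of_nonneg_right h2 (by positivity : 0 ≤ (2 * Real.exp 1) ^ n)
    linarith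

theorem const_gamma_conv {x : ℝ} (hx : 0 < x) :
    Real.Gamma (x + 1 / 2) ^ 2 ≤ x * Real.Gamma x ^ 2 := by
  have h := Real.Gamma_mul_add_mul_le_rpow_Gamma_mul_rpow_Gamma (s := x) (t := x + 1)
    (a := 1 / 2) (b := 1 / 2) hx (by linarith) (by norm_num) (by norm_num) (by norm_num)
  have e : 1 / 2 * x + 1 / 2 * (x + 1) = x + 1 / 2 := by ring
  have hG := Real.Gamma_pos_of_pos hx
  have hG1 := Real.Gamma_pos_of_pos (by linarith : 0 < x + 1)
  have hG2 := Real.Gamma_pos_of_pos (by linarith : 0 < x + 1 / 2)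
  rw [e, ← Real.sqrt_eq_rpow, ← Real.sqrt_eq_rpow] at h
  have h2 := pow_le_pow_left₀ hG2.le h 2
  rw [mul_pow, Real.sq_sqrt hG.le, Real.sq_sqrt hG1.le, Real.Gamma_add_one hx.ne'] at h2
  nlinarith

theorem const_lt {n : ℕ} (hn : 14 ≤ n) :
    kappa (n - 1) ^ n / kappa n ^ (n - 2) < 1 / 2 * √(20 * Real.pi / n) ^ n := by
  obtain ⟨k, rfl⟩ : ∃ k, n = k + 2 := ⟨n - 2, by omega⟩
  have hk : (12 : ℝ) ≤ k := by exact_mod_cast (by omega : 12 ≤ k)
  have e1 : k + 2 - 1 = k + 1 := by omega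
  have e2 : k + 2 - 2 = k := by omega
  rw [e1, e2]
  have hpi := Real.pi_pos
  have hsp : 0 < √Real.pi := Real.sqrt_pos.2 hpi
  have hsq : √Real.pi ^ 2 = Real.pi := Real.sq_sqrt hpi.le
  have hA := const_gamma_low (k + 2)
  have hB := const_gamma_conv (x := ((k + 1 : ℕ) : ℝ) / 2 + 1) (by positivity)
  have e3 : ((k + 1 : ℕ) : ℝ) / 2 + 1 + 1 / 2 = ((k + 2 : ℕ) : ℝ) / 2 + 1 := by
    push_cast; ring
  rw [e3] at hB
  have hk1 := const_kappa (m := k + 1) (by omega)
  have hk2 := const_kappa (m := k + 2) (by omega)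
  have hA0 : 0 < Real.Gamma (((k + 2 : ℕ) : ℝ) / 2 + 1) := Real.Gamma_pos_of_pos (by positivity)
  have hB0 : 0 < Real.Gamma (((k + 1 : ℕ) : ℝ) / 2 + 1) := Real.Gamma_pos_of_pos (by positivity)
  generalize Real.Gamma (((k + 2 : ℕ) : ℝ) / 2 + 1) = A at hA hB hk2 hA0
  generalize Real.Gamma (((k + 1 : ℕ) : ℝ) / 2 + 1) = B at hB hk1 hB0
  have hκ2 : 0 < kappa (k + 2) := by rw [hk2]; positivity
  have he0 := Real.exp_pos 1
  have he : Real.exp 1 ≤ 68 / 25 := by linarith [Real.exp_one_lt_d9]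
  push_cast at hA hB ⊢
  set r : ℝ := A / (√Real.pi * B) with hr
  have hr0 : 0 ≤ r := by positivity
  have hrk : kappa (k + 1) = r * kappa (k + 2) := by
    rw [hk1, hk2, hr, pow_succ _ (k + 1)]
    field_simp
  have hr2 : r ^ 2 ≤ (k + 3) / (2 * Real.pi) := by
    rw [hr, div_pow, mul_pow, hsq, div_le_div_iff₀ (by positivity) (by positivity)]
    have := mul_le_mul_of_nonneg_right hB (by positivity : 0 ≤ 2 * Real.pi)
    nlinarith
  have hκ : kappa (k + 2) ^ 2 ≤ (2 * Real.pi * Real.exp 1 / (k + 2)) ^ (k + 2) := by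
    rw [hk2, div_pow, ← pow_mul, mul_comm (k + 2) 2, pow_mul, hsq, div_le_iff₀ (by positivity)]
    refine le_trans (le_of_eq ?_) (mul_le_mul_of_nonneg_left hA (by positivity))
    rw [← mul_pow]
    congr 1
    field_simp
  have hL : kappa (k + 1) ^ (k + 2) / kappa (k + 2) ^ k = r ^ (k + 2) * kappa (k + 2) ^ 2 := by
    rw [hrk, mul_pow, pow_add (kappa (k + 2))]
    field_simp
  have hs0 : 0 < √(20 * Real.pi / ((k : ℝ) + 2)) := Real.sqrt_pos.2 (by positivity)
  have hq : r * (2 * Real.pi * Real.exp 1 / (k + 2)) ≤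
      9 / 10 * √(20 * Real.pi / ((k : ℝ) + 2)) := by
    refine le_of_sq_le_sq ?_ (by positivity)
    rw [mul_pow, mul_pow, Real.sq_sqrt (by positivity)]
    refine (mul_le_mul_of_nonneg_right hr2 (by positivity)).trans ?_
    have e : ((k : ℝ) + 3) / (2 * Real.pi) * (2 * Real.pi * Real.exp 1 / (k + 2)) ^ 2 =
        (Real.exp 1 ^ 2 * (k + 3) / (10 * (k + 2))) * (20 * Real.pi / (k + 2)) := by
      field_simp
      ring
    rw [e]
    refine mul_le_mul_of_nonneg_right ?_ (by positivity)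
    rw [div_le_iff₀ (by positivity)]
    have h1 : Real.exp 1 ^ 2 ≤ (68 / 25) ^ 2 := pow_le_pow_left₀ he0.le he 2
    have h2 := mul_le_mul_of_nonneg_right h1 (by positivity : 0 ≤ (k : ℝ) + 3)
    linarith
  have hp : (9 / 10 : ℝ) ^ (k + 2) < 1 / 2 :=
    lt_of_le_of_lt (pow_le_pow_of_le_one (by norm_num) (by norm_num) hn) (by norm_num)
  calc _ = r ^ (k + 2) * kappa (k + 2) ^ 2 := hL
    _ ≤ r ^ (k + 2) * (2 * Real.pi * Real.exp 1 / (k + 2)) ^ (k + 2) :=
        mul_le_mul_of_nonneg_left hκ (by positivity)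
    _ = (r * (2 * Real.pi * Real.exp 1 / (k + 2))) ^ (k + 2) := (mul_pow _ _ _).symm
    _ ≤ (9 / 10 * √(20 * Real.pi / ((k : ℝ) + 2))) ^ (k + 2) :=
        pow_le_pow_left₀ (by positivity) hq _
    _ = (9 / 10) ^ (k + 2) * √(20 * Real.pi / ((k : ℝ) + 2)) ^ (k + 2) := mul_pow _ _ _
    _ < _ := mul_lt_mul_of_pos_right hp (by positivity)

end Vale.Agent.P237
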