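import Vale.Agent.P237.Defs

namespace Vale.Agent.P237

open MeasureTheory

theorem ce_kappa (m : ℕ) : kappa (m + 1) = √Real.pi ^ (m + 1) / Real.Gamma (((m : ℝ) + 1) / 2 + 1) := by
  rw [kappa, EuclideanSpace.volume_closedBall]
  simp only [Fintype.card_fin, ENNReal.ofReal_one, one_pow, one_mul]
  rw [ENNReal.toReal_ofReal (div_nonneg (by positivity) (Real.Gamma_pos_of_pos (by positivity)).le)]
  push_cast
  rfl

theorem ce_pos (m : ℕ) : 0 < kappa (m + 1) := by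
  rw [ce_kappa]
  exact div_pos (pow_pos (Real.sqrt_pos.2 Real.pi_pos) _) (Real.Gamma_pos_of_pos (by positivity))

theorem ce_rec (m : ℕ) : kappa (m + 3) = 2 * Real.pi / ((m : ℝ) + 3) * kappa (m + 1) := by
  rw [show m + 3 = (m + 2) + 1 from rfl, ce_kappa, ce_kappa]
  have h1 : (((m + 2 : ℕ) : ℝ) + 1) / 2 + 1 = (((m : ℝ) + 1) / 2 + 1) + 1 := by push_cast; ring
  have h2 : (0 : ℝ) < Real.Gamma (((m : ℝ) + 1) / 2 + 1) := Real.Gamma_pos_of_pos (by positivity)
  have h3 : √Real.pi ^ (m + 2 + 1) = Real.pi * √Real.pi ^ (m + 1) := by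
    rw [show m + 2 + 1 = 2 + (m + 1) by ring, pow_add, Real.sq_sqrt Real.pi_pos.le]
  rw [h1, Real.Gamma_add_one (by positivity), h3]
  field_simp
  ring

theorem ce_one : kappa 1 = 2 := by
  have := ce_kappa 0
  simp only [Nat.cast_zero, zero_add, pow_one] at this
  rw [this, Real.Gamma_add_one (by norm_num), Real.Gamma_one_half_eq]
  have : √Real.pi ≠ 0 := (Real.sqrt_pos.2 Real.pi_pos).ne'
  field_simp

theorem ce_two : kappa 2 = Real.pi := by
  have := ce_kappa 1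
  rw [this, Real.sq_sqrt Real.pi_pos.le]
  norm_num

theorem ce_ratio (m : ℕ) :
    kappa (m + 1) ^ 2 ≤ ((m : ℝ) + 3) / (2 * Real.pi) * kappa (m + 2) ^ 2 := by
  rw [show m + 2 = (m + 1) + 1 from rfl, ce_kappa, ce_kappa]
  set s : ℝ := ((m : ℝ) + 1) / 2 + 1 with hs
  have hs0 : 0 < s := by positivity
  have hG : 0 < Real.Gamma s := Real.Gamma_pos_of_pos hs0
  have h1 : (((m + 1 : ℕ) : ℝ) + 1) / 2 + 1 = 1 / 2 * s + 1 / 2 * (s + 1) := by
    rw [hs]; push_cast; ring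
  have h2 := Real.Gamma_mul_add_mul_le_rpow_Gamma_mul_rpow_Gamma (s := s) (t := s + 1)
    (a := 1 / 2) (b := 1 / 2) hs0 (by linarith) (by norm_num) (by norm_num) (by norm_num)
  rw [h1]
  set g := Real.Gamma (1 / 2 * s + 1 / 2 * (s + 1)) with hg
  have hg0 : 0 < g := Real.Gamma_pos_of_pos (by positivity)
  have h3 : g ^ 2 ≤ s * Real.Gamma s ^ 2 := by
    rw [← Real.sqrt_eq_rpow, ← Real.sqrt_eq_rpow, ← Real.sqrt_mul hG.le,
      Real.Gamma_add_one hs0.ne'] at h2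
    have := pow_le_pow_left₀ hg0.le h2 2
    rw [Real.sq_sqrt (by positivity)] at this
    linarith
  have h4 : √Real.pi ^ (m + 1 + 1) = √Real.pi * √Real.pi ^ (m + 1) := by ring
  have h5 : ((m : ℝ) + 3) = 2 * s := by rw [hs]; ring
  have hp := Real.pi_pos
  have h6 : 0 < (√Real.pi ^ (m + 1)) ^ 2 := by
    have := Real.sqrt_pos.2 hp
    positivity
  rw [h4, h5, div_pow, div_pow, mul_pow, Real.sq_sqrt hp.le]
  have h7 : 2 * s / (2 * Real.pi) * (Real.pi * (√Real.pi ^ (m + 1)) ^ 2 / g ^ 2) =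
      s * (√Real.pi ^ (m + 1)) ^ 2 / g ^ 2 := by field_simp
  rw [h7, div_le_div_iff₀ (by positivity) (by positivity)]
  nlinarith [mul_le_mul_of_nonneg_left h3 h6.le]

/-- the normalised squared ball volume -/
noncomputable def ceB (n : ℕ) : ℝ := (((n : ℝ) + 1) / (2 * Real.pi * Real.exp 1)) ^ n * kappa n ^ 2

theorem ce_step (m : ℕ) : ceB (m + 3) ≤ ceB (m + 1) := by
  have hp := Real.pi_pos
  have he := Real.exp_pos 1
  have hk := ce_pos m
  have hm : (0 : ℝ) ≤ m := Nat.cast_nonneg m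
  have h1 : ((m : ℝ) + 4) / (m + 2) ≤ Real.exp (2 / (m + 2)) := by
    refine le_trans (le_of_eq ?_) (Real.add_one_le_exp _)
    field_simp
    ring
  have h2 : ((m : ℝ) + 4) / (m + 3) ≤ Real.exp (1 / (m + 2)) := by
    refine le_trans ?_ (Real.add_one_le_exp _)
    rw [div_add_one (by positivity), div_le_div_iff₀ (by positivity) (by positivity)]
    nlinarith
  have h3 : (((m : ℝ) + 4) / (m + 2)) ^ (m + 1) * (((m : ℝ) + 4) / (m + 3)) ^ 2 ≤
      Real.exp 1 ^ 2 := by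
    refine (mul_le_mul (pow_le_pow_left₀ (by positivity) h1 _)
      (pow_le_pow_left₀ (by positivity) h2 _) (by positivity) (by positivity)).trans (le_of_eq ?_)
    rw [← Real.exp_nat_mul, ← Real.exp_nat_mul, ← Real.exp_nat_mul, ← Real.exp_add]
    congr 1
    push_cast
    field_simp
    ring
  have h4 : ceB (m + 3) = ceB (m + 1) *
      ((((m : ℝ) + 4) / (m + 2)) ^ (m + 1) * (((m : ℝ) + 4) / (m + 3)) ^ 2 / Real.exp 1 ^ 2) := by
    rw [ceB, ceB, ce_rec]
    have h5 : (((m + 3 : ℕ) : ℝ) + 1) / (2 * Real.pi * Real.exp 1) =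
        (((m + 1 : ℕ) : ℝ) + 1) / (2 * Real.pi * Real.exp 1) * (((m : ℝ) + 4) / (m + 2)) := by
      push_cast
      field_simp
      ring
    have h6 : (((m + 3 : ℕ) : ℝ) + 1) = m + 4 := by push_cast; ring
    rw [show m + 3 = (m + 1) + 2 from rfl, pow_add]
    rw [show m + 1 + 2 = m + 3 from rfl]
    nth_rewrite 1 [h5]
    rw [h6, mul_pow]
    field_simp
  rw [h4]
  refine mul_le_of_le_one_right (by rw [ceB]; positivity) ?_
  rwa [div_le_one (by positivity)]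

theorem ce_three : ceB 3 < 1 / 4 := by
  have h1 := ce_rec 0
  simp only [zero_add, Nat.cast_zero, ce_one] at h1
  have hp := Real.pi_gt_d2
  have he := Real.exp_one_gt_d9
  have h2 : ceB 3 = 128 / (9 * Real.pi * Real.exp 1 ^ 3) := by
    rw [ceB, h1]
    push_cast
    field_simp
    ring
  have h3 : (2.7 : ℝ) ^ 3 ≤ Real.exp 1 ^ 3 := pow_le_pow_left₀ (by norm_num) (by linarith) _
  rw [h2, div_lt_div_iff₀ (by positivity) (by norm_num)]
  nlinarith

theorem ce_four : ceB 4 < 1 / 4 := by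
  have h1 := ce_rec 1
  simp only [Nat.cast_one, Nat.reduceAdd, ce_two] at h1
  have hp := Real.pi_pos
  have he := Real.exp_one_gt_d9
  have h2 : ceB 4 = 625 / (64 * Real.exp 1 ^ 4) := by
    rw [ceB, h1]
    push_cast
    field_simp
    ring
  have h3 : (2.7 : ℝ) ^ 4 ≤ Real.exp 1 ^ 4 := pow_le_pow_left₀ (by norm_num) (by linarith) _
  rw [h2, div_lt_div_iff₀ (by positivity) (by norm_num)]
  nlinarith

theorem ce_lt (k : ℕ) : ceB (k + 3) < 1 / 4 ∧ ceB (k + 4) < 1 / 4 := by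
  induction k with
  | zero => exact ⟨ce_three, ce_four⟩
  | succ k ih => exact ⟨ih.2, (ce_step (k + 2)).trans_lt ih.1⟩

theorem const_e {n : ℕ} (hn : 3 ≤ n) :
    kappa (n - 1) ^ n / kappa n ^ (n - 2) < 1 / 2 * √(Real.exp 1) ^ n * kappa n := by
  obtain ⟨k, rfl⟩ := Nat.exists_eq_add_of_le' hn
  have hp := Real.pi_pos
  have he := Real.exp_pos 1
  have ha : 0 < kappa (k + 2) := ce_pos (k + 1)
  have hb : 0 < kappa (k + 3) := ce_pos (k + 2)
  have h1 : kappa (k + 2) ^ 2 ≤ (((k + 3 : ℕ) : ℝ) + 1) / (2 * Real.pi) * kappa (k + 3) ^ 2 := by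
    have := ce_ratio (k + 1)
    convert this using 3
    push_cast
    ring
  have h2 := (ce_lt k).1
  rw [show k + 3 - 1 = k + 2 from rfl, show k + 3 - 2 = k + 1 from rfl,
    div_lt_iff₀ (by positivity)]
  refine lt_of_pow_lt_pow_left₀ 2 (by positivity) ?_
  have h3 : (√(Real.exp 1) ^ (k + 3)) ^ 2 = Real.exp 1 ^ (k + 3) := by
    rw [← pow_mul, mul_comm, pow_mul, Real.sq_sqrt he.le]
  have h4 : (kappa (k + 2) ^ (k + 3)) ^ 2 ≤
      ceB (k + 3) * (Real.exp 1 ^ (k + 3) * (kappa (k + 3) * kappa (k + 3) ^ (k + 1)) ^ 2) := by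
    rw [← pow_mul, mul_comm (k + 3) 2, pow_mul]
    refine (pow_le_pow_left₀ (by positivity) h1 _).trans (le_of_eq ?_)
    rw [ceB, mul_pow, div_pow, div_pow, mul_pow (2 * Real.pi)]
    field_simp
    ring
  refine h4.trans_lt ?_
  have h5 : (1 / 2 * √(Real.exp 1) ^ (k + 3) * kappa (k + 3) * kappa (k + 3) ^ (k + 1)) ^ 2 =
      1 / 4 * (Real.exp 1 ^ (k + 3) * (kappa (k + 3) * kappa (k + 3) ^ (k + 1)) ^ 2) := by
    rw [← h3]; ring
  rw [h5]
  exact mul_lt_mul_of_pos_right h2 (by positivity)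

end Vale.Agent.P237
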