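import Vale.Agent.P237.Stmt

/-! Proof-level definitions for P237. -/

namespace Vale.Agent.P237

open MeasureTheory

abbrev E (n : ℕ) := EuclideanSpace ℝ (Fin n)

/-- a matrix acting on Euclidean space -/
noncomputable def app {n : ℕ} (T : Matrix (Fin n) (Fin n) ℝ) : E n →ₗ[ℝ] E n :=
  Matrix.toLin (EuclideanSpace.basisFun (Fin n) ℝ).toBasis (EuclideanSpace.basisFun (Fin n) ℝ).toBasis T

/-- second-moment matrix of a weighted family -/
def mom {n : ℕ} {ι : Type} (s : Finset ι) (t : ι → ℝ) (u : ι → E n) :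
    Matrix (Fin n) (Fin n) ℝ :=
  Matrix.of fun a b => ∑ j ∈ s, t j * (u j a * u j b)

/-- centred zonotope -/
def zon {n : ℕ} {ι : Type} (s : Finset ι) (a : ι → E n) : Set (E n) :=
  {x | ∃ c : ι → ℝ, (∀ j, |c j| ≤ 1 / 2) ∧ x = ∑ j ∈ s, c j • a j}

/-- polyhedron with normals `w` and offsets `r` -/
def pol {n N : ℕ} (w : Fin N → E n) (r : Fin N → ℝ) : Set (E n) :=
  {x | ∀ j, inner ℝ (w j) x ≤ r j}

/-- cone-volume data of the polytope `pol w 1` -/
structure Cone {n N : ℕ} (w : Fin N → E n) (V : Fin N → ℝ) : Prop where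
  nonneg : ∀ j, 0 ≤ V j
  total : volume (pol w fun _ => 1) = ENNReal.ofReal (∑ j, V j)
  outer : ∀ r : Fin N → ℝ, (∀ j, 0 < r j) →
    volume (pol w r) ≤ ENNReal.ofReal (∑ j, r j ^ n * V j)
  shell : ∀ r : Fin N → ℝ, (∀ j, 0 < r j) → (∀ j, r j ≤ 1) →
    ENNReal.ofReal (∑ j, (1 - r j ^ n) * V j) ≤
      volume {x | x ∈ pol w (fun _ => 1) ∧ ∃ j, r j < inner ℝ (w j) x}

theorem app_apply {n : ℕ} (T : Matrix (Fin n) (Fin n) ℝ) (x : E n) (i : Fin n) :
    app T x i = ∑ k, T i k * x k := by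
  simp [app, Matrix.toLin_apply, Matrix.mulVec, dotProduct, Finset.sum_apply, Pi.single_apply]

theorem det_app {n : ℕ} (T : Matrix (Fin n) (Fin n) ℝ) : LinearMap.det (app T) = T.det :=
  LinearMap.det_toLin _ _

theorem app_mul {n : ℕ} (S T : Matrix (Fin n) (Fin n) ℝ) (x : E n) :
    app (S * T) x = app S (app T x) := by
  ext i
  simp only [app_apply, Matrix.mul_apply, Finset.sum_mul, Finset.mul_sum, mul_assoc]
  exact Finset.sum_comm

theorem volume_image_app {n : ℕ} (T : Matrix (Fin n) (Fin n) ℝ) (hT : |T.det| = 1)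
    (S : Set (E n)) : volume (app T '' S) = volume S := by
  rw [Measure.addHaar_image_linearMap, det_app, hT]
  simp

theorem isClosed_pol {n N : ℕ} (w : Fin N → E n) (r : Fin N → ℝ) : IsClosed (pol w r) := by
  simp only [pol, Set.ofPred_forall]
  exact isClosed_iInter fun j => isClosed_le (by fun_prop) continuous_const

theorem convex_pol {n N : ℕ} (w : Fin N → E n) (r : Fin N → ℝ) : Convex ℝ (pol w r) := by
  intro x hx y hy a b ha hb hab j
  have h1 := mul_le_mul_of_nonneg_left (hx j) ha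
  have h2 := mul_le_mul_of_nonneg_left (hy j) hb
  rw [inner_add_right, inner_smul_right, inner_smul_right]
  calc _ ≤ a * r j + b * r j := add_le_add h1 h2
    _ = r j := by rw [← add_mul, hab, one_mul]

end Vale.Agent.P237
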