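import Vale.Agent.P237.Defs

namespace Vale.Agent.P237

open MeasureTheory

theorem detId_inner {n : ℕ} (x y : E n) : inner ℝ x y = ∑ k, x k * y k := by
  simp [PiLp.inner_apply, mul_comm]

theorem detId_corner {n : ℕ} (B C : Matrix (Fin (n + 1)) (Fin (n + 1)) ℝ) (τ : ℝ)
    (h00 : C 0 0 = τ) (h0 : ∀ j : Fin n, C 0 j.succ = 0) (h1 : ∀ (i : Fin n) j, C i.succ j = 0) :
    (B + C).det = B.det + τ * (B.submatrix Fin.succ Fin.succ).det := by
  have hsub : ∀ f : Fin n → Fin (n + 1), (B + C).submatrix Fin.succ f = B.submatrix Fin.succ f := by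
    intro f
    ext i j
    simp [h1]
  rw [Matrix.det_succ_row_zero, Matrix.det_succ_row_zero B, Fin.sum_univ_succ, Fin.sum_univ_succ]
  simp only [hsub, Matrix.add_apply, h00, h0, add_zero, Fin.succAbove_zero, Fin.val_zero, pow_zero,
    one_mul]
  ring

theorem detId_conj {n : ℕ} (Q : Matrix (Fin n) (Fin n) ℝ) (x y : Fin n → ℝ) (a c : Fin n) :
    (Q * (Matrix.of fun i j => x i * y j) * Q.transpose) a c =
      (∑ k, Q a k * x k) * ∑ k, Q c k * y k := by
  simp only [Matrix.mul_apply, Matrix.of_apply, Matrix.transpose_apply, Finset.sum_mul,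
    Finset.mul_sum]
  exact Finset.sum_congr rfl fun i _ => Finset.sum_congr rfl fun j _ => by ring

theorem detId_mom {n : ℕ} {ι : Type} (s : Finset ι) (t : ι → ℝ) (u : ι → E n) :
    mom s t u = ∑ j ∈ s, t j • Matrix.of fun a b => u j a * u j b := by
  ext a b
  simp [mom, Matrix.sum_apply]

/-- coordinates on the hyperplane orthogonal to `v` -/
theorem exists_proj {n : ℕ} {v : E (n + 1)} (hv : ‖v‖ = 1) :
    ∃ P : E (n + 1) →ₗ[ℝ] E n, (∀ x, ‖P x‖ ≤ ‖x‖) ∧
      (∀ M : Set (E (n + 1)),
        volume (P '' M) = volume ((ℝ ∙ v)ᗮ.orthogonalProjectionOnto '' M)) ∧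
      ∀ (ι : Type) (s : Finset ι) (t : ι → ℝ) (u : ι → E (n + 1)) (τ : ℝ),
        (mom s t u + Matrix.of fun a b => τ * (v a * v b)).det =
          (mom s t u).det + τ * (mom s t fun j => P (u j)).det := by
  have hv0 : v ≠ 0 := by
    intro h
    rw [h, norm_zero] at hv
    exact zero_ne_one hv
  have : Fact (Module.finrank ℝ (E (n + 1)) = n + 1) := ⟨by simp⟩
  let b : OrthonormalBasis (Fin n) ℝ (ℝ ∙ v)ᗮ := OrthonormalBasis.fromOrthogonalSpanSingleton n hv0
  let P : E (n + 1) →ₗ[ℝ] E n :=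
    b.repr.toLinearEquiv.toLinearMap ∘ₗ (ℝ ∙ v)ᗮ.orthogonalProjectionOnto.toLinearMap
  have hP : ∀ x, P x = b.repr ((ℝ ∙ v)ᗮ.orthogonalProjectionOnto x) := fun x => rfl
  have hPi : ∀ x i, P x i = inner ℝ (b i : E (n + 1)) x := by
    intro x i
    rw [hP, b.repr_apply_apply, Submodule.inner_orthogonalProjectionOnto_eq_of_mem_left]
  refine ⟨P, fun x => ?_, fun M => ?_, fun ι s t u τ => ?_⟩
  · rw [hP, LinearIsometryEquiv.norm_map]
    exact Submodule.norm_orthogonalProjectionOnto_apply_le _ x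
  · have h1 : P '' M = b.repr.symm.toMeasurableEquiv ⁻¹'
        ((ℝ ∙ v)ᗮ.orthogonalProjectionOnto '' M) := by
      ext y
      simp only [Set.mem_image, Set.mem_preimage, LinearIsometryEquiv.coe_toMeasurableEquiv, hP]
      constructor
      · rintro ⟨x, hx, rfl⟩
        exact ⟨x, hx, by simp⟩
      · rintro ⟨x, hx, h⟩
        exact ⟨x, hx, by rw [h]; simp⟩
    rw [h1]
    exact MeasurePreserving.measure_preimage_equiv (f := b.repr.symm.toMeasurableEquiv)
      b.measurePreserving_repr_symm _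
  · let r : Fin (n + 1) → E (n + 1) := Fin.cons v fun i => (b i : E (n + 1))
    let Q : Matrix (Fin (n + 1)) (Fin (n + 1)) ℝ := Matrix.of fun a k => r a k
    have hvv : inner ℝ v v = 1 := by rw [real_inner_self_eq_norm_sq, hv]; norm_num
    have hvb : ∀ i, inner ℝ v (b i : E (n + 1)) = 0 := fun i =>
      Submodule.mem_orthogonal_singleton_iff_inner_right.1 (b i).2
    have hbv : ∀ i, inner ℝ (b i : E (n + 1)) v = 0 := fun i => by rw [real_inner_comm, hvb]
    have hbb : ∀ i j, inner ℝ (b i : E (n + 1)) (b j : E (n + 1)) = if i = j then 1 else 0 :=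
      fun i j => by rw [← Submodule.coe_inner]; exact orthonormal_iff_ite.1 b.orthonormal i j
    have hQx : ∀ (x : E (n + 1)) a, ∑ k, Q a k * x k = inner ℝ (r a) x := fun x a => by
      rw [detId_inner]; rfl
    have hQ : Q * Q.transpose = 1 := by
      ext a c
      have h1 : (Q * Q.transpose) a c = inner ℝ (r a) (r c) := by
        rw [← hQx, Matrix.mul_apply]; rfl
      rw [h1]
      refine Fin.cases ?_ (fun i => ?_) a <;> refine Fin.cases ?_ (fun j => ?_) c
      · simp only [r, Fin.cons_zero, hvv, Matrix.one_apply_eq]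
      · simp [r, hvb, (Fin.succ_ne_zero j).symm]
      · simp [r, hbv]
      · simp only [r, Fin.cons_succ, hbb, Matrix.one_apply, Fin.succ_inj]
    have hdet : ∀ A : Matrix (Fin (n + 1)) (Fin (n + 1)) ℝ, (Q * A * Q.transpose).det = A.det := by
      intro A
      have h1 : Q.det * Q.transpose.det = 1 := by rw [← Matrix.det_mul, hQ, Matrix.det_one]
      rw [Matrix.det_mul, Matrix.det_mul]
      linear_combination A.det * h1
    have hmom : ∀ a c, (Q * mom s t u * Q.transpose) a c =
        ∑ j ∈ s, t j * (inner ℝ (r a) (u j) * inner ℝ (r c) (u j)) := by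
      intro a c
      rw [detId_mom, Matrix.mul_sum, Matrix.sum_mul, Matrix.sum_apply]
      refine Finset.sum_congr rfl fun j _ => ?_
      rw [Matrix.mul_smul, Matrix.smul_mul, Matrix.smul_apply, detId_conj, hQx, hQx, smul_eq_mul]
    have hvv' : ∀ a c, (Q * (Matrix.of fun a b => τ * (v a * v b)) * Q.transpose) a c =
        τ * (inner ℝ (r a) v * inner ℝ (r c) v) := by
      intro a c
      have h1 : (Matrix.of fun a b => τ * (v a * v b)) =
          τ • Matrix.of fun a b : Fin (n + 1) => v a * v b := by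
        ext a b
        simp
      rw [h1, Matrix.mul_smul, Matrix.smul_mul, Matrix.smul_apply, detId_conj, hQx, hQx,
        smul_eq_mul]
    rw [← hdet, ← hdet (mom s t u), Matrix.mul_add, Matrix.add_mul,
      detId_corner _ _ τ (by rw [hvv']; simp only [r, Fin.cons_zero, hvv, mul_one])
        (fun j => by rw [hvv']; simp only [r, Fin.cons_succ, hbv, mul_zero])
        (fun i j => by rw [hvv']; simp only [r, Fin.cons_succ, hbv, zero_mul, mul_zero])]
    congr 3
    ext a c
    rw [Matrix.submatrix_apply, hmom]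
    simp only [mom, Matrix.of_apply, hPi, r, Fin.cons_succ]

end Vale.Agent.P237
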