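import Vale.Agent.P237.Main

namespace Vale.Agent.P237

open MeasureTheory

theorem vol_projBody_ne_top {n : ℕ} (K : Set (E n)) : volume (projBody K) ≠ ⊤ := by
  set e := EuclideanSpace.basisFun (Fin n) ℝ with he
  have hsub : projBody K ⊆
      Metric.closedBall 0 (∑ i, (projVol K (e i) + projVol K (-e i))) := by
    intro x hx
    rw [mem_closedBall_zero_iff, ← e.sum_repr' x]
    refine (norm_sum_le _ _).trans (Finset.sum_le_sum fun i _ => ?_)
    have h0 : ‖e i‖ = 1 := e.orthonormal.1 i
    have h1 := hx (e i) h0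
    have h2 := hx (-e i) (by rw [norm_neg, h0])
    have h3 : 0 ≤ projVol K (e i) := ENNReal.toReal_nonneg
    have h4 : 0 ≤ projVol K (-e i) := ENNReal.toReal_nonneg
    rw [inner_neg_right] at h2
    rw [norm_smul, h0, mul_one, Real.norm_eq_abs, real_inner_comm, abs_le]
    constructor <;> linarith
  exact ((measure_mono hsub).trans_lt measure_closedBall_lt_top).ne

theorem main_real {n N : ℕ} (hn : 3 ≤ n) 
    (hN : 2 * (N : ℝ) ≤ √(Real.exp 1 / (Real.exp 1 - 1)) ^ n)
    (a : Fin N → E n) (b : Fin N → ℝ) (hK : IsCompact (pol a b))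
    (hi : (interior (pol a b)).Nonempty) :
    kappa (n - 1) ^ n / kappa n ^ (n - 2) * (volume (pol a b)).toReal ^ (n - 1) <
      (volume (projBody (pol a b))).toReal := by
  have h0 : ∀ m, 0 ≤ kappa m := fun m => ENNReal.toReal_nonneg
  refine (ENNReal.ofReal_lt_iff_lt_toReal ?_ (vol_projBody_ne_top _)).1 (main hn hN a b hK hi)
  have := h0 n
  have := h0 (n - 1)
  positivity

end Vale.Agent.P237
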