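import Vale.Agent.P237.Defs

namespace Vale.Agent.P237

open MeasureTheory

theorem fub_vol {n : ℕ} {v : E n} (hv : ‖v‖ = 1) {S : Set (E n)} (hS : MeasurableSet S) :
    volume S = ∫⁻ y : (ℝ ∙ v)ᗮ, volume {t : ℝ | (y : E n) + t • v ∈ S} := by
  have h1 : MeasurePreserving ((ℝ ∙ v).measurableEquivProd (0 : E n)).symm volume volume := by
    have h := ((ℝ ∙ v).measurePreserving_measurableEquivProd (0 : E n)).symm
    rwa [InnerProductSpace.euclideanHausdorffMeasure_eq_volume] at h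
  have h2 : MeasurePreserving
      (Prod.map (LinearIsometryEquiv.toSpanUnitSingleton (𝕜 := ℝ) v hv) (id : (ℝ ∙ v)ᗮ → (ℝ ∙ v)ᗮ))
      (volume.prod volume) (volume.prod volume) :=
    (LinearIsometryEquiv.measurePreserving _).prod (MeasurePreserving.id _)
  have h3 := h1.comp h2
  rw [← h3.measure_preimage hS.nullMeasurableSet,
    Measure.prod_apply_symm (h3.measurable hS)]
  congr 1
  ext y
  congr 1
  ext t
  simp [add_comm]

theorem fub_proj {n : ℕ} {v : E n} (y : (ℝ ∙ v)ᗮ) (t : ℝ) :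
    (ℝ ∙ v)ᗮ.orthogonalProjectionOnto ((y : E n) + t • v) = y := by
  rw [map_add, map_smul, Submodule.orthogonalProjectionOnto_orthogonalComplement_singleton_eq_zero,
    Submodule.orthogonalProjectionOnto_mem_subspace_eq_self]
  simp

theorem fub_decomp {n : ℕ} (v x : E n) :
    ∃ t : ℝ, ((ℝ ∙ v)ᗮ.orthogonalProjectionOnto x : E n) + t • v = x := by
  have h := ((ℝ ∙ v).measurableEquivProd (0 : E n)).symm_apply_apply x
  rw [Submodule.measurableEquivProd_symm_apply, Submodule.measurableEquivProd_apply] at h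
  obtain ⟨t, ht⟩ := Submodule.mem_span_singleton.1 ((ℝ ∙ v).orthogonalProjectionOnto x).2
  refine ⟨t, ?_⟩
  rw [ht, add_comm]
  simpa using h

theorem fub_meas {n : ℕ} {K : Set (E n)} (hK : IsCompact K) (v : E n) :
    MeasurableSet ((ℝ ∙ v)ᗮ.orthogonalProjectionOnto '' K) :=
  (hK.image (ℝ ∙ v)ᗮ.orthogonalProjectionOnto.continuous).isClosed.measurableSet

theorem fub_line {I : Set ℝ} (hI : Convex ℝ I) (ε : ℝ) :
    volume {t | t ∈ I ∧ t + ε ∉ I} ≤ ENNReal.ofReal |ε| := by
  have hO := hI.ordConnected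
  have key : ∀ a b : ℝ, a ≤ b → a ∈ I → a + ε ∉ I → b ∈ I → b + ε ∉ I → b - a ≤ |ε| := by
    intro a b hab ha ha' hb hb'
    by_contra hcon
    push Not at hcon
    rcases le_total 0 ε with h | h
    · rw [abs_of_nonneg h] at hcon
      exact ha' (hO.out ha hb ⟨by linarith, by linarith⟩)
    · rw [abs_of_nonpos h] at hcon
      exact hb' (hO.out ha hb ⟨by linarith, by linarith⟩)
  refine (Real.volume_le_diam _).trans (Metric.ediam_le fun a ha b hb => ?_)
  rw [edist_dist, Real.dist_eq]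
  apply ENNReal.ofReal_le_ofReal
  rcases le_total a b with h | h
  · rw [abs_sub_comm, abs_of_nonneg (sub_nonneg.2 h)]
    exact key a b h ha.1 ha.2 hb.1 hb.2
  · rw [abs_of_nonneg (sub_nonneg.2 h)]
    exact key b a h hb.1 hb.2 ha.1 ha.2

/-- points leaving `K` after a step along `v` -/
theorem fub_shell {n : ℕ} {K : Set (E n)} (hK : IsCompact K) (hc : Convex ℝ K) {v : E n}
    (hv : ‖v‖ = 1) (ε : ℝ) :
    volume {x | x ∈ K ∧ x + ε • v ∉ K} ≤
      ENNReal.ofReal |ε| * volume ((ℝ ∙ v)ᗮ.orthogonalProjectionOnto '' K) := by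
  have hm : MeasurableSet {x | x ∈ K ∧ x + ε • v ∉ K} :=
    hK.measurableSet.inter
      ((hK.measurableSet.preimage (f := fun x : E n => x + ε • v) (by fun_prop)).compl)
  rw [fub_vol hv hm, ← lintegral_indicator_const (fub_meas hK v)]
  refine lintegral_mono fun y => ?_
  by_cases hy : y ∈ (ℝ ∙ v)ᗮ.orthogonalProjectionOnto '' K
  · rw [Set.indicator_of_mem hy]
    have hI : Convex ℝ {t : ℝ | (y : E n) + t • v ∈ K} := by
      intro a ha b hb p q hp hq hpq
      have h := hc ha hb hp hq hpq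
      have e : (y : E n) + (p • a + q • b) • v =
          p • ((y : E n) + a • v) + q • ((y : E n) + b • v) := by
        have : (y : E n) = (p + q) • (y : E n) := by rw [hpq, one_smul]
        conv_lhs => rw [this]
        simp only [smul_eq_mul, add_smul, smul_add, mul_smul]
        abel
      show (y : E n) + (p • a + q • b) • v ∈ K
      rw [e]
      exact h
    refine le_trans (le_of_eq ?_) (fub_line hI ε)
    congr 1
    ext t
    simp only [Set.mem_ofPred_eq, add_smul, add_assoc]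
  · rw [Set.indicator_of_notMem hy]
    have he : {t : ℝ | (y : E n) + t • v ∈ {x | x ∈ K ∧ x + ε • v ∉ K}} = ∅ := by
      ext t
      simp only [Set.mem_ofPred_eq, Set.mem_empty_iff_false, iff_false]
      exact fun h => hy ⟨_, h.1, fub_proj y t⟩
    rw [he, measure_empty]

theorem fub_line2 {I T : Set ℝ} (hI : IsCompact I) (hne : I.Nonempty) {τ : ℝ} (hτ : 0 ≤ τ)
    (h : ∀ t ∈ I, ∀ c : ℝ, |c| ≤ 1 / 2 → t + c * τ ∈ T) :
    volume I + ENNReal.ofReal τ ≤ volume T := by
  obtain ⟨b, hb, hb'⟩ := hI.exists_isGreatest hne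
  have hA : volume ((fun t : ℝ => t + τ / 2) ⁻¹' I) = volume I := measure_preimage_add_right _ _ _
  have hB : volume (Set.Ioc (b - τ / 2) (b + τ / 2)) = ENNReal.ofReal τ := by
    rw [Real.volume_Ioc]
    congr 1
    ring
  have hd : Disjoint ((fun t : ℝ => t + τ / 2) ⁻¹' I) (Set.Ioc (b - τ / 2) (b + τ / 2)) := by
    rw [Set.disjoint_left]
    intro t ht ht'
    have h1 : t + τ / 2 ≤ b := hb' ht
    linarith [ht'.1]
  rw [← hA, ← hB, ← measure_union hd measurableSet_Ioc]
  refine measure_mono ?_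
  rintro t (ht | ht)
  · have h1 := h _ ht (-(1 / 2)) (by rw [abs_neg, abs_of_nonneg (by norm_num)])
    have e : t + τ / 2 + -(1 / 2) * τ = t := by ring
    rwa [e] at h1
  · have hτ' : 0 < τ := by linarith [ht.1, ht.2]
    have h1 := h b hb ((t - b) / τ) (by
      rw [abs_div, abs_of_pos hτ', div_le_iff₀ hτ', abs_le]
      constructor <;> linarith [ht.1, ht.2])
    have e : b + (t - b) / τ * τ = t := by field_simp; ring
    rwa [e] at h1

/-- adding a centred segment of length `τ` -/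
theorem fub_seg {n : ℕ} {M : Set (E n)} (hM : IsCompact M) {v : E n} (hv : ‖v‖ = 1) {τ : ℝ}
    (hτ : 0 ≤ τ) :
    volume M + ENNReal.ofReal τ * volume ((ℝ ∙ v)ᗮ.orthogonalProjectionOnto '' M) ≤
      volume {x | ∃ y ∈ M, ∃ c : ℝ, |c| ≤ 1 / 2 ∧ x = y + (c * τ) • v} := by
  have hT : IsCompact {x | ∃ y ∈ M, ∃ c : ℝ, |c| ≤ 1 / 2 ∧ x = y + (c * τ) • v} := by
    have h := (hM.prod (isCompact_Icc (a := (-(1 / 2) : ℝ)) (b := 1 / 2))).image
      (f := fun p : E n × ℝ => p.1 + (p.2 * τ) • v) (by fun_prop)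
    convert h using 1
    ext x
    simp only [Set.mem_ofPred_eq, Set.mem_image, Set.mem_prod, Set.mem_Icc, Prod.exists]
    constructor
    · rintro ⟨y, hy, c, hc, rfl⟩
      exact ⟨y, c, ⟨hy, abs_le.1 hc⟩, rfl⟩
    · rintro ⟨y, c, ⟨hy, hc⟩, rfl⟩
      exact ⟨y, hy, c, abs_le.2 hc, rfl⟩
  rw [fub_vol hv hT.measurableSet, fub_vol hv hM.measurableSet,
    ← lintegral_indicator_const (fub_meas hM v),
    ← lintegral_add_right _ (measurable_const.indicator (fub_meas hM v))]
  refine lintegral_mono fun y => ?_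
  have hsub : ∀ t ∈ {t : ℝ | (y : E n) + t • v ∈ M}, ∀ c : ℝ, |c| ≤ 1 / 2 → t + c * τ ∈
      {t : ℝ | (y : E n) + t • v ∈
        {x | ∃ y ∈ M, ∃ c : ℝ, |c| ≤ 1 / 2 ∧ x = y + (c * τ) • v}} := by
    intro t ht c hc
    exact ⟨_, ht, c, hc, by rw [add_smul, add_assoc]⟩
  by_cases hy : y ∈ (ℝ ∙ v)ᗮ.orthogonalProjectionOnto '' M
  · rw [Set.indicator_of_mem hy]
    have hiso : Isometry fun t : ℝ => (y : E n) + t • v := by
      refine Isometry.of_dist_eq fun a b => ?_
      rw [dist_add_left, dist_eq_norm, ← sub_smul, norm_smul, hv, mul_one, dist_eq_norm]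
    have hI : IsCompact {t : ℝ | (y : E n) + t • v ∈ M} :=
      hiso.isClosedEmbedding.isCompact_preimage hM
    obtain ⟨x, hx, rfl⟩ := hy
    obtain ⟨t, ht⟩ := fub_decomp v x
    exact fub_line2 hI ⟨t, by show _ ∈ M; rw [ht]; exact hx⟩ hτ hsub
  · rw [Set.indicator_of_notMem hy, add_zero]
    refine measure_mono fun t ht => ?_
    have h := hsub t ht 0 (by norm_num)
    rwa [zero_mul, add_zero] at h

end Vale.Agent.P237
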