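import Vale.Agent.P237.Defs

namespace Vale.Agent.P237

open MeasureTheory

theorem gauss_lint {n : ℕ} (hn : 1 ≤ n) :
    ∫⁻ x : E n, ENNReal.ofReal (Real.exp (-((n : ℝ) / 20) * ‖x‖ ^ 2)) =
      ENNReal.ofReal (√(20 * Real.pi / n) ^ n) := by
  have hn' : (0 : ℝ) < n := by exact_mod_cast hn
  have hb : (0 : ℝ) < (n : ℝ) / 20 := by positivity
  have h := GaussianFourier.integral_rexp_neg_mul_sq_norm (V := E n) hb
  have e : (Real.pi / ((n : ℝ) / 20)) ^ ((Module.finrank ℝ (E n) : ℝ) / 2) =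
      √(20 * Real.pi / n) ^ n := by
    rw [finrank_euclideanSpace_fin, Real.sqrt_eq_rpow, ← Real.rpow_natCast,
      ← Real.rpow_mul (by positivity)]
    congr 1
    · field_simp
    · ring
  rw [e] at h
  have hpos : (0 : ℝ) < √(20 * Real.pi / n) ^ n := by
    have := Real.pi_pos
    positivity
  have hint : Integrable (fun x : E n => Real.exp (-((n : ℝ) / 20) * ‖x‖ ^ 2)) :=
    Integrable.of_integral_ne_zero (by rw [h]; exact hpos.ne')
  rw [← h, ofReal_integral_eq_lintegral_ofReal hint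
    (Filter.Eventually.of_forall fun x => (Real.exp_pos _).le)]

/-- few half-spaces at distance at least one cut out a large set -/
theorem gauss {n N : ℕ} (hn : 1 ≤ n) (hN : 2 * (N : ℝ) ≤ Real.exp (n / 20)) (u : Fin N → E n)
    (hu : ∀ j, ‖u j‖ ≤ 1) :
    ENNReal.ofReal (1 / 2 * √(20 * Real.pi / n) ^ n) ≤ volume (pol u fun _ => 1) := by
  have hn' : (0 : ℝ) < n := by exact_mod_cast hn
  have hb : (0 : ℝ) < (n : ℝ) / 20 := by positivity
  have hG := gauss_lint hn
  obtain ⟨b, hbdef⟩ : ∃ b : ℝ, b = (n : ℝ) / 20 := ⟨_, rfl⟩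
  obtain ⟨I, hI⟩ : ∃ I : ℝ, I = √(20 * Real.pi / n) ^ n := ⟨_, rfl⟩
  have hI0 : 0 ≤ I := by rw [hI]; positivity
  rw [← hbdef] at hb hG hN
  rw [← hI] at hG ⊢
  have hL : MeasurableSet (pol u fun _ => 1) := (isClosed_pol _ _).measurableSet
  have hpt : ∀ x : E n, ENNReal.ofReal (Real.exp (-b * ‖x‖ ^ 2)) ≤
      (pol u fun _ => 1).indicator 1 x +
        ∑ j, ENNReal.ofReal (Real.exp (-b)) * ENNReal.ofReal (Real.exp (-b * ‖x - u j‖ ^ 2)) := by
    intro x
    by_cases hx : x ∈ pol u fun _ => 1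
    · rw [Set.indicator_of_mem hx]
      refine le_trans ?_ le_self_add
      rw [Pi.one_apply, ENNReal.ofReal_le_one, Real.exp_le_one_iff]
      have := sq_nonneg ‖x‖
      nlinarith
    · obtain ⟨j, hj⟩ : ∃ j, 1 < inner ℝ (u j) x := by
        by_contra hc
        push Not at hc
        exact hx hc
      refine le_trans ?_ le_add_self
      refine le_trans ?_ (Finset.single_le_sum (f := fun j => ENNReal.ofReal (Real.exp (-b)) *
        ENNReal.ofReal (Real.exp (-b * ‖x - u j‖ ^ 2))) (fun _ _ => by positivity)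
        (Finset.mem_univ j))
      rw [← ENNReal.ofReal_mul (Real.exp_pos _).le, ← Real.exp_add]
      refine ENNReal.ofReal_le_ofReal (Real.exp_le_exp.2 ?_)
      rw [norm_sub_sq_real, real_inner_comm]
      have h1 : ‖u j‖ ^ 2 ≤ 1 := by
        have := hu j
        have := norm_nonneg (u j)
        nlinarith
      have h2 : 0 ≤ 2 * inner ℝ (u j) x - ‖u j‖ ^ 2 - 1 := by linarith
      nlinarith [mul_nonneg hb.le h2]
  have hmeas : ∀ j, Measurable fun x : E n =>
      ENNReal.ofReal (Real.exp (-b)) * ENNReal.ofReal (Real.exp (-b * ‖x - u j‖ ^ 2)) := by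
    intro j
    refine Measurable.const_mul (Measurable.ennreal_ofReal ?_) _
    exact (by fun_prop : Continuous fun x : E n => Real.exp (-b * ‖x - u j‖ ^ 2)).measurable
  have hj : ∀ j, ∫⁻ x : E n, ENNReal.ofReal (Real.exp (-b)) *
      ENNReal.ofReal (Real.exp (-b * ‖x - u j‖ ^ 2)) = ENNReal.ofReal (Real.exp (-b) * I) := by
    intro j
    rw [lintegral_const_mul' _ _ ENNReal.ofReal_ne_top,
      lintegral_sub_right_eq_self (fun x : E n => ENNReal.ofReal (Real.exp (-b * ‖x‖ ^ 2))) (u j),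
      hG, ENNReal.ofReal_mul (Real.exp_pos _).le]
  have hmain := lintegral_mono (μ := (volume : Measure (E n))) hpt
  rw [hG, lintegral_add_right _ (Finset.measurable_sum _ fun j _ => hmeas j),
    lintegral_indicator_one hL, lintegral_finsetSum _ fun j _ => hmeas j] at hmain
  simp only [hj, Finset.sum_const, Finset.card_univ, Fintype.card_fin, nsmul_eq_mul] at hmain
  have hhalf : (N : ENNReal) * ENNReal.ofReal (Real.exp (-b) * I) ≤ ENNReal.ofReal (1 / 2 * I) := by
    rw [← ENNReal.ofReal_natCast, ← ENNReal.ofReal_mul (Nat.cast_nonneg _)]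
    refine ENNReal.ofReal_le_ofReal ?_
    rw [← mul_assoc]
    refine mul_le_mul_of_nonneg_right ?_ hI0
    rw [Real.exp_neg, ← div_eq_mul_inv, div_le_iff₀ (Real.exp_pos _)]
    linarith
  have hsplit : ENNReal.ofReal I = ENNReal.ofReal (1 / 2 * I) + ENNReal.ofReal (1 / 2 * I) := by
    rw [← ENNReal.ofReal_add (by positivity) (by positivity)]
    congr 1
    ring
  rw [hsplit] at hmain
  exact (ENNReal.add_le_add_iff_right ENNReal.ofReal_ne_top).1
    (hmain.trans (add_le_add le_rfl hhalf))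

end Vale.Agent.P237
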