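import Vale.Agent.P237.Defs

namespace Vale.Agent.P237

open MeasureTheory

namespace LinA

open Matrix

theorem quad {n : ℕ} {ι : Type} (s : Finset ι) (t : ι → ℝ) (u : ι → E n) (v : Fin n → ℝ) :
    v ⬝ᵥ (mom s t u *ᵥ v) = ∑ j ∈ s, t j * (∑ k, v k * u j k) ^ 2 := by
  simp only [dotProduct, mulVec, mom, of_apply, Finset.sum_mul, Finset.mul_sum, sq]
  rw [show (∑ j ∈ s, ∑ k, ∑ i, t j * (v i * u j i * (v k * u j k))) =
      ∑ k, ∑ i, ∑ j ∈ s, t j * (v i * u j i * (v k * u j k)) from by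
    rw [Finset.sum_comm]
    exact Finset.sum_congr rfl fun k _ => Finset.sum_comm]
  refine Finset.sum_congr rfl fun k _ => Finset.sum_congr rfl fun i _ =>
    Finset.sum_congr rfl fun j _ => by ring

theorem herm {n : ℕ} {ι : Type} (s : Finset ι) (t : ι → ℝ) (u : ι → E n) :
    (mom s t u).IsHermitian := by
  ext a b
  simp only [conjTranspose_apply, mom, of_apply, star_trivial]
  exact Finset.sum_congr rfl fun j _ => by ring

theorem eig {n : ℕ} {ι : Type} (s : Finset ι) (t : ι → ℝ) (u : ι → E n) (i : Fin n) :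
    (herm s t u).eigenvalues i =
      ∑ j ∈ s, t j * (∑ k, (herm s t u).eigenvectorBasis i k * u j k) ^ 2 := by
  rw [(herm s t u).eigenvalues_eq, ← quad]
  simp

theorem sum_app {n : ℕ} {ι : Type} (s : Finset ι) (t : ι → ℝ) (u : ι → E n) (a : Fin n → ℝ) :
    ∑ j ∈ s, t j * ‖app (diagonal a * ((herm s t u).eigenvectorUnitary : Matrix (Fin n) (Fin n) ℝ)ᵀ)
      (u j)‖ ^ 2 = ∑ i, a i ^ 2 * (herm s t u).eigenvalues i := by
  simp only [eig, EuclideanSpace.real_norm_sq_eq, app_apply, diagonal_mul, transpose_apply,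
    IsHermitian.eigenvectorUnitary_apply, Finset.mul_sum]
  rw [Finset.sum_comm]
  refine Finset.sum_congr rfl fun i _ => Finset.sum_congr rfl fun j _ => ?_
  rw [show (∑ k, a i * (herm s t u).eigenvectorBasis i k * u j k) =
      a i * ∑ k, (herm s t u).eigenvectorBasis i k * u j k from by
    rw [Finset.mul_sum]; exact Finset.sum_congr rfl fun k _ => by ring]
  ring

theorem abs_det_unitary {n : ℕ} (U : unitaryGroup (Fin n) ℝ) :
    |(U : Matrix (Fin n) (Fin n) ℝ).det| = 1 := by
  have h := det_of_mem_unitary U.2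
  have h2 := (Unitary.mem_iff.mp h).1
  simp only [star_trivial] at h2
  have : |(U : Matrix (Fin n) (Fin n) ℝ).det| ^ 2 = 1 := by rw [sq_abs, sq, h2]
  exact (pow_eq_one_iff_of_nonneg (abs_nonneg _) two_ne_zero).mp this

end LinA

open LinA Matrix in
/-- determinant from traces -/
theorem lin {n : ℕ} (hn : 1 ≤ n) {ι : Type} (s : Finset ι) (t : ι → ℝ) (u : ι → E n)
    (ht : ∀ j, 0 ≤ t j) {c : ℝ} (hc : 0 ≤ c)
    (h : ∀ T : Matrix (Fin n) (Fin n) ℝ, |T.det| = 1 →
      n * c ≤ ∑ j ∈ s, t j * ‖app T (u j)‖ ^ 2) :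
    c ^ n ≤ (mom s t u).det := by
  set d := (herm s t u).eigenvalues with hd
  have hd0 : ∀ i, 0 ≤ d i := fun i => by
    rw [hd, eig]
    exact Finset.sum_nonneg fun j _ => mul_nonneg (ht j) (sq_nonneg _)
  have hdet : (mom s t u).det = ∏ i, d i := by
    simpa using (herm s t u).det_eq_prod_eigenvalues
  have hn0 : n ≠ 0 := by omega
  have hnpos : (0 : ℝ) < n := by exact_mod_cast hn
  have key : ∀ η : ℝ, 0 < η → c ^ n ≤ ∏ i, (d i + η) := by
    intro η hη
    have hpos : ∀ i, 0 < d i + η := fun i => add_pos_of_nonneg_of_pos (hd0 i) hη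
    have hP : 0 < ∏ i, (d i + η) := Finset.prod_pos fun i _ => hpos i
    set g : ℝ := (∏ i, (d i + η)) ^ ((n : ℝ)⁻¹) with hg
    have hg0 : 0 < g := Real.rpow_pos_of_pos hP _
    have hgn : g ^ n = ∏ i, (d i + η) := Real.rpow_inv_natCast_pow hP.le hn0
    let a : Fin n → ℝ := fun i => Real.sqrt (g / (d i + η))
    have ha2 : ∀ i, a i ^ 2 = g / (d i + η) := fun i =>
      Real.sq_sqrt (div_pos hg0 (hpos i)).le
    have hprod : ∏ i, a i = 1 := by
      have h1 : (∏ i, a i) ^ 2 = 1 := by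
        rw [← Finset.prod_pow]
        simp only [ha2]
        rw [Finset.prod_div_distrib, Finset.prod_const, Finset.card_univ, Fintype.card_fin, hgn,
          div_self hP.ne']
      exact (pow_eq_one_iff_of_nonneg (Finset.prod_nonneg fun i _ => Real.sqrt_nonneg _)
        two_ne_zero).mp h1
    have h1 := h (diagonal a * ((herm s t u).eigenvectorUnitary : Matrix (Fin n) (Fin n) ℝ)ᵀ) (by
      rw [det_mul, det_diagonal, det_transpose, hprod, one_mul, abs_det_unitary])
    rw [sum_app] at h1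
    have h2 : ∑ i, a i ^ 2 * d i ≤ n * g := by
      calc ∑ i, a i ^ 2 * d i ≤ ∑ _i : Fin n, g := Finset.sum_le_sum fun i _ => by
            rw [ha2, div_mul_eq_mul_div, div_le_iff₀ (hpos i)]
            exact mul_le_mul_of_nonneg_left (by linarith) hg0.le
        _ = n * g := by simp
    have h3 : c ≤ g := le_of_mul_le_mul_left (h1.trans h2) hnpos
    rw [← hgn]
    exact pow_le_pow_left₀ hc h3 n
  rw [hdet]
  have hcont : Continuous fun η : ℝ => ∏ i, (d i + η) := by fun_prop
  have hlim : Filter.Tendsto (fun η : ℝ => ∏ i, (d i + η)) (nhdsWithin 0 (Set.Ioi 0))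
      (nhds (∏ i, d i)) := by
    have := (hcont.tendsto 0).mono_left (nhdsWithin_le_nhds (s := Set.Ioi 0))
    simpa using this
  exact ge_of_tendsto hlim (Filter.eventually_of_mem self_mem_nhdsWithin fun η hη => key η hη)

end Vale.Agent.P237
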