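import Vale.Agent.P237.Defs
import Vale.Agent.P230.PLw

namespace Vale.Agent.P237

open MeasureTheory
open scoped Pointwise

theorem mink_scale {n N : ℕ} {w : Fin N → E n} {r : Fin N → ℝ} {l c : ℝ} (hc : 0 < c)
    (hL : ENNReal.ofReal l ≤ volume (pol w r)) :
    ENNReal.ofReal (c ^ n * l) ≤ volume (pol w fun j => c * r j) := by
  have hsub : c • pol w r ⊆ pol w fun j => c * r j := by
    rintro _ ⟨x, hx, rfl⟩ j
    show inner ℝ (w j) (c • x) ≤ c * r j
    rw [inner_smul_right]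
    exact mul_le_mul_of_nonneg_left (hx j) hc.le
  refine le_trans ?_ (measure_mono hsub)
  rw [Measure.addHaar_smul, finrank_euclideanSpace_fin, abs_of_pos (pow_pos hc n),
    ENNReal.ofReal_mul (pow_pos hc n).le]
  exact mul_le_mul_right hL _

theorem mink_step {n N : ℕ} {w : Fin N → E n} {V : Fin N → ℝ} (hV : Cone w V)
    {q : Fin N → ℝ} (hq : ∀ j, 0 ≤ q j)
    (hL : ENNReal.ofReal (∑ j, V j) ≤ volume (pol w q)) {e : ℝ} (he0 : 0 < e) (he1 : e < 1) :
    ∑ j, V j ≤ ∑ j, (1 + e * (q j - 1)) ^ n * V j := by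
  have hp : ∀ j, 0 < 1 + e * (q j - 1) := fun j => by nlinarith [mul_nonneg he0.le (hq j)]
  have h1 := (Vale.Agent.P230.plw_euclidean n).set (a := 1 - e) (b := e) (by linarith) he0
    (by ring) (isClosed_pol w fun _ => 1).measurableSet (isClosed_pol w q).measurableSet
    (isClosed_pol w fun j => 1 + e * (q j - 1)).measurableSet (by
      intro x hx y hy j
      show inner ℝ (w j) ((1 - e) • x + e • y) ≤ 1 + e * (q j - 1)
      rw [inner_add_right, inner_smul_right, inner_smul_right]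
      have a1 := mul_le_mul_of_nonneg_left (hx j) (by linarith : 0 ≤ 1 - e)
      have a2 := mul_le_mul_of_nonneg_left (hy j) he0.le
      linarith)
  have h2 : ENNReal.ofReal (∑ j, V j) ≤
      volume (pol w fun _ => 1) ^ (1 - e) * volume (pol w q) ^ e := by
    rw [hV.total]
    calc ENNReal.ofReal (∑ j, V j) =
          ENNReal.ofReal (∑ j, V j) ^ (1 - e) * ENNReal.ofReal (∑ j, V j) ^ e := by
          rw [← ENNReal.rpow_add_of_nonneg _ _ (by linarith) he0.le, sub_add_cancel,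
            ENNReal.rpow_one]
      _ ≤ _ := mul_le_mul_right (ENNReal.rpow_le_rpow hL he0.le) _
  have h3 := (h2.trans h1).trans (hV.outer _ hp)
  exact (ENNReal.ofReal_le_ofReal_iff (Finset.sum_nonneg fun j _ =>
    mul_nonneg (pow_pos (hp j) n).le (hV.nonneg j))).1 h3

theorem mink_deriv {n N : ℕ} (hn : 1 ≤ n) {V q : Fin N → ℝ}
    (h : ∀ e : ℝ, 0 < e → e < 1 → ∑ j, V j ≤ ∑ j, (1 + e * (q j - 1)) ^ n * V j) :
    ∑ j, V j ≤ ∑ j, q j * V j := by
  have hd : HasDerivAt (fun e : ℝ => ∑ j, (1 + e * (q j - 1)) ^ n * V j)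
      (∑ j, ((n : ℝ) * (q j - 1)) * V j) 0 := by
    refine HasDerivAt.fun_sum fun j _ => ?_
    have h1 : HasDerivAt (fun e : ℝ => 1 + e * (q j - 1)) (q j - 1) 0 := by
      simpa using ((hasDerivAt_id (0 : ℝ)).mul_const (q j - 1)).const_add 1
    have h2 := (h1.fun_pow n).mul_const (V j)
    simpa using h2
  have h3 : 0 ≤ ∑ j, ((n : ℝ) * (q j - 1)) * V j := by
    refine ge_of_tendsto hd.tendsto_slope_zero_right ?_
    filter_upwards [Ioo_mem_nhdsGT (zero_lt_one' ℝ)] with e he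
    have := h e he.1 he.2
    simp only [zero_add, zero_mul, add_zero, one_pow, one_mul, smul_eq_mul]
    exact mul_nonneg (inv_nonneg.2 he.1.le) (sub_nonneg.2 this)
  have h4 : ∑ j, ((n : ℝ) * (q j - 1)) * V j = n * (∑ j, q j * V j - ∑ j, V j) := by
    rw [← Finset.sum_sub_distrib, Finset.mul_sum]
    exact Finset.sum_congr rfl fun j _ => by ring
  rw [h4] at h3
  have hn0 : (0 : ℝ) < n := by exact_mod_cast hn
  exact sub_nonneg.1 ((mul_nonneg_iff_of_pos_left hn0).1 h3)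

/-- Minkowski's first inequality -/
theorem mink {n N : ℕ} (hn : 1 ≤ n) {w : Fin N → E n} {V : Fin N → ℝ} (hV : Cone w V)
    (hpos : 0 < ∑ j, V j) {r : Fin N → ℝ} (hr : ∀ j, 0 ≤ r j) {l : ℝ} (hl : 0 < l)
    (hL : ENNReal.ofReal l ≤ volume (pol w r)) :
    (∑ j, V j) ^ (n - 1) * l ≤ (∑ j, r j * V j) ^ n := by
  obtain ⟨c, hc, hcn⟩ : ∃ c : ℝ, 0 < c ∧ c ^ n = (∑ j, V j) / l :=
    ⟨((∑ j, V j) / l) ^ ((n : ℝ)⁻¹), Real.rpow_pos_of_pos (div_pos hpos hl) _,
      Real.rpow_inv_natCast_pow (div_pos hpos hl).le (by omega)⟩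
  have hcl : c ^ n * l = ∑ j, V j := by rw [hcn]; field_simp
  have h1 := mink_scale hc hL
  rw [hcl] at h1
  have h2 := mink_deriv (q := fun j => c * r j) hn fun e he0 he1 =>
    mink_step hV (fun j => mul_nonneg hc.le (hr j)) h1 he0 he1
  have h3 : ∑ j, c * r j * V j = c * ∑ j, r j * V j := by
    rw [Finset.mul_sum]
    exact Finset.sum_congr rfl fun j _ => by ring
  rw [h3] at h2
  have h4 := pow_le_pow_left₀ hpos.le h2 n
  rw [mul_pow] at h4
  have h5 : (∑ j, V j) ^ n = c ^ n * ((∑ j, V j) ^ (n - 1) * l) := by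
    calc (∑ j, V j) ^ n = (∑ j, V j) ^ (n - 1) * ∑ j, V j := by
          rw [← pow_succ, Nat.sub_add_cancel hn]
      _ = (∑ j, V j) ^ (n - 1) * (c ^ n * l) := by rw [hcl]
      _ = _ := by ring
  rw [h5] at h4
  exact le_of_mul_le_mul_left h4 (pow_pos hc n)

end Vale.Agent.P237
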