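import Vale.Agent.P237.Fub

namespace Vale.Agent.P237

open MeasureTheory Filter Topology

theorem sup_side_aux {n N : ℕ} {w : Fin N → E n} {V : Fin N → ℝ} (hV : Cone w V)
    (hK : IsCompact (pol w fun _ => 1)) {v : E n} (hv : ‖v‖ = 1) {σ : ℝ} (hσ : |σ| = 1)
    {e : ℝ} (he : 0 < e) (hs : ∀ j, e * max (σ * inner ℝ (w j) v) 0 < 1) :
    ∑ j, (1 - (1 - e * max (σ * inner ℝ (w j) v) 0) ^ n) * V j ≤
      e * projVol (pol w fun _ => 1) v := by
  have h1 := hV.shell (fun j => 1 - e * max (σ * inner ℝ (w j) v) 0)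
    (fun j => by linarith [hs j])
    (fun j => by
      have : 0 ≤ e * max (σ * inner ℝ (w j) v) 0 := mul_nonneg he.le (le_max_right _ _)
      linarith)
  have h2 := fub_shell hK (convex_pol w _) hv (σ * e)
  have hsub : {x | x ∈ pol w (fun _ => 1) ∧
      ∃ j, 1 - e * max (σ * inner ℝ (w j) v) 0 < inner ℝ (w j) x} ⊆
      {x | x ∈ pol w (fun _ => 1) ∧ x + (σ * e) • v ∉ pol w (fun _ => 1)} := by
    rintro x ⟨hx, j, hj⟩
    refine ⟨hx, fun hx' => ?_⟩
    have a1 : inner ℝ (w j) x ≤ 1 := hx j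
    have a2 : inner ℝ (w j) (x + (σ * e) • v) ≤ 1 := hx' j
    rw [inner_add_right, inner_smul_right] at a2
    rcases le_total (σ * inner ℝ (w j) v) 0 with h | h
    · rw [max_eq_right h] at hj
      linarith
    · rw [max_eq_left h] at hj
      linarith
  have hfin : volume ((ℝ ∙ v)ᗮ.orthogonalProjectionOnto '' (pol w fun _ => 1)) ≠ ⊤ :=
    (hK.image (ContinuousLinearMap.continuous _)).measure_lt_top.ne
  have h3 := h1.trans ((measure_mono hsub).trans h2)
  have habs : |σ * e| = e := by rw [abs_mul, hσ, one_mul, abs_of_pos he]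
  rw [habs, ← ENNReal.ofReal_toReal hfin, ← ENNReal.ofReal_mul he.le] at h3
  exact (ENNReal.ofReal_le_ofReal_iff (mul_nonneg he.le ENNReal.toReal_nonneg)).1 h3

theorem sup_side {n N : ℕ} {w : Fin N → E n} {V : Fin N → ℝ} (hV : Cone w V)
    (hK : IsCompact (pol w fun _ => 1)) {v : E n} (hv : ‖v‖ = 1) {σ : ℝ} (hσ : |σ| = 1) :
    ∑ j, (n * max (σ * inner ℝ (w j) v) 0) * V j ≤ projVol (pol w fun _ => 1) v := by
  set p : Fin N → ℝ := fun j => max (σ * inner ℝ (w j) v) 0 with hp
  have hd : HasDerivAt (fun e : ℝ => ∑ j, (1 - (1 - e * p j) ^ n) * V j)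
      (∑ j, (n * p j) * V j) 0 := by
    apply HasDerivAt.fun_sum
    intro j _
    apply HasDerivAt.mul_const
    have h1 : HasDerivAt (fun e : ℝ => 1 - e * p j) (-p j) 0 := by
      simpa using ((hasDerivAt_id (0 : ℝ)).mul_const (p j)).const_sub 1
    have h2 := (h1.fun_pow n).const_sub 1
    simpa using h2
  have ht := hd.tendsto_slope_zero_right
  refine le_of_tendsto ht ?_
  have hev : ∀ᶠ e : ℝ in 𝓝[>] 0, ∀ j, e * p j < 1 := by
    rw [eventually_all]
    intro j
    apply nhdsWithin_le_nhds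
    have : Tendsto (fun e : ℝ => e * p j) (𝓝 0) (𝓝 (0 * p j)) :=
      (continuous_id.mul continuous_const).tendsto 0
    rw [zero_mul] at this
    exact this.eventually (gt_mem_nhds one_pos)
  filter_upwards [hev, self_mem_nhdsWithin] with e h1 h2
  have he : 0 < e := h2
  have h3 := sup_side_aux hV hK hv hσ he h1
  simp only [zero_add, zero_mul, sub_zero, one_pow, sub_self, Finset.sum_const_zero, smul_eq_mul]
  rw [inv_mul_le_iff₀ he]
  exact h3

/-- one half of Cauchy's projection formula -/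
theorem sup_le {n N : ℕ} {w : Fin N → E n} {V : Fin N → ℝ} (hV : Cone w V)
    (hK : IsCompact (pol w fun _ => 1)) {v : E n} (hv : ‖v‖ = 1) :
    (n : ℝ) / 2 * ∑ j, V j * |inner ℝ (w j) v| ≤ projVol (pol w fun _ => 1) v := by
  have h1 := sup_side hV hK hv (σ := 1) abs_one
  have h2 := sup_side hV hK hv (σ := -1) (by simp)
  have h3 : ∑ j, (n * max (1 * inner ℝ (w j) v) 0) * V j +
      ∑ j, (n * max (-1 * inner ℝ (w j) v) 0) * V j =
      n * ∑ j, V j * |inner ℝ (w j) v| := by
    rw [← Finset.sum_add_distrib, Finset.mul_sum]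
    refine Finset.sum_congr rfl fun j _ => ?_
    rcases le_total (inner ℝ (w j) v) 0 with h | h
    · rw [max_eq_right (by linarith), max_eq_left (by linarith), abs_of_nonpos h]
      ring
    · rw [max_eq_left (by linarith), max_eq_right (by linarith), abs_of_nonneg h]
      ring
  linarith

end Vale.Agent.P237
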