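import Vale.Agent.P237.Pos
import Vale.Agent.P237.ConeV
import Vale.Agent.P237.Sup
import Vale.Agent.P237.Mink
import Vale.Agent.P237.Ball
import Vale.Agent.P237.ConstE

namespace Vale.Agent.P237

open MeasureTheory

theorem inner_app_transpose {n : ℕ} (T : Matrix (Fin n) (Fin n) ℝ) (x y : E n) :
    inner ℝ x (app T.transpose y) = inner ℝ (app T x) y := by
  simp only [PiLp.inner_apply, app_apply, Matrix.transpose_apply, RCLike.inner_apply,
    conj_trivial, Finset.sum_mul, Finset.mul_sum]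
  rw [Finset.sum_comm]
  exact Finset.sum_congr rfl fun i _ => Finset.sum_congr rfl fun k _ => by ring

theorem vol_pol_ge {n N : ℕ} (hN : 2 * (N : ℝ) ≤ √(Real.exp 1 / (Real.exp 1 - 1)) ^ n)
    (w : Fin N → E n) (T : Matrix (Fin n) (Fin n) ℝ) (hT : |T.det| = 1) :
    ENNReal.ofReal (1 / 2 * √(Real.exp 1) ^ n * kappa n) ≤
      volume (pol w fun j => ‖app T (w j)‖) := by
  refine (ball_ge (Real.one_lt_exp_iff.2 one_pos) hN (fun j => ‖app T (w j)‖⁻¹ • app T (w j)) fun j => ?_).trans ?_
  · rw [norm_smul, norm_inv, norm_norm]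
    exact inv_mul_le_one_of_le₀ le_rfl (norm_nonneg _)
  rw [← volume_image_app T.transpose (by rwa [Matrix.det_transpose])]
  refine measure_mono ?_
  rintro _ ⟨y, hy, rfl⟩ j
  have h1 := hy j
  rw [inner_app_transpose]
  rw [inner_smul_left] at h1
  simp only [conj_trivial] at h1
  rcases (norm_nonneg (app T (w j))).eq_or_lt with h0 | h0
  · rw [norm_eq_zero.1 h0.symm]; simp
  · rwa [inv_mul_le_iff₀ h0, mul_one] at h1

theorem main_norm {n N : ℕ} (hn : 3 ≤ n) (hN0 : 0 < N)
    (hN : 2 * (N : ℝ) ≤ √(Real.exp 1 / (Real.exp 1 - 1)) ^ n)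
    (w : Fin N → E n) (hK : IsCompact (pol w fun _ => 1)) :
    ENNReal.ofReal (kappa (n - 1) ^ n / kappa n ^ (n - 2) *
      (volume (pol w fun _ => 1)).toReal ^ (n - 1)) < volume (projBody (pol w fun _ => 1)) := by
  obtain ⟨V, hV⟩ := exists_cone hN0 w hK
  have hn1 : 1 ≤ n := by omega
  have hnR : (0 : ℝ) < n := by exact_mod_cast hn1
  have hW0 : 0 ≤ ∑ j, V j := Finset.sum_nonneg fun j _ => hV.nonneg j
  have hW : 0 < ∑ j, V j := by
    have ho : IsOpen {x : E n | ∀ j, inner ℝ (w j) x < 1} := by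
      simp only [Set.ofPred_forall]
      exact isOpen_iInter_of_finite fun j => isOpen_lt (by fun_prop) continuous_const
    have h1 : 0 < volume {x : E n | ∀ j, inner ℝ (w j) x < 1} :=
      ho.measure_pos _ ⟨0, fun j => by simp⟩
    have h2 : 0 < volume (pol w fun _ => 1) :=
      h1.trans_le (measure_mono fun x hx j => (hx j).le)
    rwa [hV.total, ENNReal.ofReal_pos] at h2
  set W := ∑ j, V j with hWd
  set l : ℝ := 1 / 2 * √(Real.exp 1) ^ n * kappa n with hl
  have hl0 : 0 < l := by
    have : 0 < √(Real.exp 1) := Real.sqrt_pos.2 (Real.exp_pos 1)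
    have : 0 < kappa n := by
      obtain ⟨k, rfl⟩ := Nat.exists_eq_add_of_le' hn1
      exact ce_pos k
    positivity
  have hWl : 0 < W ^ (n - 1) * l := by positivity
  set m : ℝ := (W ^ (n - 1) * l) ^ ((n : ℝ)⁻¹) with hm
  have hm0 : 0 < m := Real.rpow_pos_of_pos hWl _
  have hmn : m ^ n = W ^ (n - 1) * l := Real.rpow_inv_natCast_pow hWl.le (by omega)
  have h1 := pos hn1 Finset.univ (fun j => ((n : ℝ) * V j) • w j) hm0 (by
    intro T hT
    have h2 := mink hn1 hV hW (r := fun j => ‖app T (w j)‖) (fun j => norm_nonneg _) hl0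
      (vol_pol_ge hN w T hT)
    have h3 : m ≤ ∑ j, ‖app T (w j)‖ * V j := by
      refine le_of_pow_le_pow_left₀ (n := n) (by omega) (Finset.sum_nonneg fun j _ =>
        mul_nonneg (norm_nonneg _) (hV.nonneg j)) ?_
      rw [hmn]; exact h2
    refine (mul_le_mul_of_nonneg_left h3 hnR.le).trans (le_of_eq ?_)
    rw [Finset.mul_sum]
    refine Finset.sum_congr rfl fun j _ => ?_
    rw [map_smul, norm_smul, Real.norm_of_nonneg (mul_nonneg hnR.le (hV.nonneg j))]
    ring)
  have h4 : zon Finset.univ (fun j => ((n : ℝ) * V j) • w j) ⊆ projBody (pol w fun _ => 1) := by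
    rintro _ ⟨c, hc, rfl⟩ u hu
    refine le_trans ?_ (sup_le hV hK hu)
    rw [sum_inner, Finset.mul_sum]
    refine Finset.sum_le_sum fun j _ => ?_
    rw [inner_smul_left, inner_smul_left]
    simp only [conj_trivial]
    have h5 : c j * inner ℝ (w j) u ≤ 1 / 2 * |inner ℝ (w j) u| := by
      refine (le_abs_self _).trans ?_
      rw [abs_mul]
      exact mul_le_mul_of_nonneg_right (hc j) (abs_nonneg _)
    have h6 := mul_le_mul_of_nonneg_left h5 (mul_nonneg hnR.le (hV.nonneg j))
    linarith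
  refine lt_of_lt_of_le ?_ (h1.trans (measure_mono h4))
  rw [hV.total, ENNReal.toReal_ofReal hW0, hmn, ENNReal.ofReal_lt_ofReal_iff hWl, mul_comm]
  exact mul_lt_mul_of_pos_left (const_e hn) (by positivity)

theorem main {n N : ℕ} (hn : 3 ≤ n) (hN : 2 * (N : ℝ) ≤ √(Real.exp 1 / (Real.exp 1 - 1)) ^ n)
    (a : Fin N → E n) (b : Fin N → ℝ) (hK : IsCompact (pol a b))
    (hi : (interior (pol a b)).Nonempty) :
    ENNReal.ofReal (kappa (n - 1) ^ n / kappa n ^ (n - 2) *
      (volume (pol a b)).toReal ^ (n - 1)) < volume (projBody (pol a b)) := by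
  have hN0 : 0 < N := by
    rcases Nat.eq_zero_or_pos N with rfl | h
    · exfalso
      have : Nonempty (Fin n) := ⟨⟨0, by omega⟩⟩
      have h1 : pol a b = Set.univ := Set.eq_univ_of_forall fun x j => j.elim0
      rw [h1] at hK
      exact noncompact_univ _ hK
    · exact h
  obtain ⟨x₀, hx₀⟩ := hi
  have hx₀K : x₀ ∈ pol a b := interior_subset hx₀
  have hd : ∀ j, a j ≠ 0 → inner ℝ (a j) x₀ < b j := by
    intro j hj
    have hc : ContinuousAt (fun s : ℝ => x₀ + s • a j) 0 := by fun_prop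
    have h1 : ∀ᶠ s in nhds (0 : ℝ), x₀ + s • a j ∈ pol a b :=
      hc.eventually_mem (by simpa using mem_interior_iff_mem_nhds.1 hx₀)
    obtain ⟨s, hs, hs0⟩ := ((h1.filter_mono nhdsWithin_le_nhds).and
      (self_mem_nhdsWithin (a := (0 : ℝ)) (s := Set.Ioi 0))).exists
    have h2 := hs j
    rw [inner_add_right, inner_smul_right] at h2
    have h3 : 0 < inner ℝ (a j) (a j) := real_inner_self_pos.2 hj
    have h4 : 0 < s := hs0
    nlinarith [mul_pos h4 h3]
  set w : Fin N → E n := fun j => (b j - inner ℝ (a j) x₀)⁻¹ • a j with hw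
  have hp : (pol w fun _ => 1) = (fun y => x₀ + y) ⁻¹' pol a b := by
    ext y
    refine forall_congr' fun j => ?_
    simp only [hw, inner_smul_left, conj_trivial, inner_add_right]
    by_cases hj : a j = 0
    · have := hx₀K j
      simp only [hj, inner_zero_left] at this ⊢
      simp [this]
    · rw [inv_mul_le_iff₀ (sub_pos.2 (hd j hj))]
      constructor <;> intro h <;> linarith
  have hKw : IsCompact (pol w fun _ => 1) := by
    rw [hp]
    exact (Homeomorph.addLeft x₀).isCompact_preimage.2 hK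
  have hvol : volume (pol w fun _ => 1) = volume (pol a b) := by
    rw [hp, measure_preimage_add]
  have hpv : ∀ u, projVol (pol w fun _ => 1) u = projVol (pol a b) u := by
    intro u
    have h1 : (ℝ ∙ u)ᗮ.orthogonalProjectionOnto '' (pol w fun _ => 1) =
        (fun z => (ℝ ∙ u)ᗮ.orthogonalProjectionOnto x₀ + z) ⁻¹'
          ((ℝ ∙ u)ᗮ.orthogonalProjectionOnto '' pol a b) := by
      rw [hp]
      ext z
      constructor
      · rintro ⟨y, hy, rfl⟩
        exact ⟨x₀ + y, hy, map_add _ _ _⟩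
      · rintro ⟨y, hy, hz⟩
        refine ⟨y - x₀, by simpa using hy, ?_⟩
        rw [map_sub, hz]
        simp
    rw [projVol, projVol, evol, evol, h1, measure_preimage_add]
  have hpb : projBody (pol w fun _ => 1) = projBody (pol a b) := by
    simp only [projBody, hpv]
  have := main_norm hn hN0 hN w hKw
  rwa [hvol, hpb] at this

end Vale.Agent.P237
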