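import Vale.Agent.P237.Zono
import Vale.Agent.P237.Lin

namespace Vale.Agent.P237

open MeasureTheory

theorem Pos_image {n : ℕ} {ι : Type} (s : Finset ι) (a : ι → E n)
    (T : Matrix (Fin n) (Fin n) ℝ) : zon s (fun j => app T (a j)) = app T '' zon s a := by
  ext x
  constructor
  · rintro ⟨c, hc, rfl⟩
    exact ⟨_, ⟨c, hc, rfl⟩, by simp only [map_sum, map_smul]⟩
  · rintro ⟨_, ⟨c, hc, rfl⟩, rfl⟩
    exact ⟨c, hc, by simp only [map_sum, map_smul]⟩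

theorem Pos_lt {n : ℕ} (hn : 1 ≤ n) {ι : Type} (s : Finset ι) (a : ι → E n) {m c : ℝ}
    (hc : 0 ≤ c) (hcm : c < m)
    (h : ∀ T : Matrix (Fin n) (Fin n) ℝ, |T.det| = 1 → n * m ≤ ∑ j ∈ s, ‖app T (a j)‖) :
    ENNReal.ofReal (c ^ n) ≤ volume (zon s a) := by
  have hn0 : (0 : ℝ) < n := by exact_mod_cast hn
  obtain ⟨A, hA⟩ : ∃ A : Set ℝ, A = {x | ∃ T : Matrix (Fin n) (Fin n) ℝ, |T.det| = 1 ∧
      x = ∑ j ∈ s, ‖app T (a j)‖} := ⟨_, rfl⟩
  have hmem : ∀ T : Matrix (Fin n) (Fin n) ℝ, |T.det| = 1 → ∑ j ∈ s, ‖app T (a j)‖ ∈ A :=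
    fun T hT => hA ▸ ⟨T, hT, rfl⟩
  have hne : A.Nonempty := ⟨_, hmem 1 (by simp)⟩
  have hlb : ∀ x ∈ A, n * m ≤ x := by
    intro x hx
    rw [hA] at hx
    obtain ⟨T, hT, rfl⟩ := hx
    exact h T hT
  have hI : n * m ≤ sInf A := le_csInf hne hlb
  have hδ : 0 < n * (m - c) := mul_pos hn0 (sub_pos.2 hcm)
  obtain ⟨x, hx, hlt⟩ := exists_lt_of_csInf_lt hne (show sInf A < sInf A + n * (m - c) by linarith)
  rw [hA] at hx
  obtain ⟨T0, hT0, rfl⟩ := hx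
  have htu : ∀ j, ‖app T0 (a j)‖ • (‖app T0 (a j)‖⁻¹ • app T0 (a j)) = app T0 (a j) := by
    intro j
    by_cases h0 : app T0 (a j) = 0
    · simp [h0]
    · rw [smul_smul, mul_inv_cancel₀ (norm_ne_zero_iff.2 h0), one_smul]
  have hu : ∀ j, ‖‖app T0 (a j)‖⁻¹ • app T0 (a j)‖ ≤ 1 := by
    intro j
    rw [norm_smul, norm_inv, norm_norm]
    exact inv_mul_le_one
  have h1 := lin hn s (fun j => ‖app T0 (a j)‖) (fun j => ‖app T0 (a j)‖⁻¹ • app T0 (a j))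
    (fun j => norm_nonneg _) hc (by
      intro T hT
      have h2 : sInf A ≤ ∑ j ∈ s, ‖app (T * T0) (a j)‖ :=
        csInf_le ⟨_, hlb⟩ (hmem _ (by rw [Matrix.det_mul, abs_mul, hT, hT0, one_mul]))
      have h3 : 2 * ∑ j ∈ s, ‖app (T * T0) (a j)‖ ≤
          ∑ j ∈ s, ‖app T0 (a j)‖ * ‖app T (‖app T0 (a j)‖⁻¹ • app T0 (a j))‖ ^ 2 +
            ∑ j ∈ s, ‖app T0 (a j)‖ := by
        rw [Finset.mul_sum, ← Finset.sum_add_distrib]
        refine Finset.sum_le_sum fun j _ => ?_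
        have e : ‖app (T * T0) (a j)‖ =
            ‖app T0 (a j)‖ * ‖app T (‖app T0 (a j)‖⁻¹ • app T0 (a j))‖ := by
          rw [app_mul]
          conv_lhs => rw [← htu j]
          rw [map_smul, norm_smul, norm_norm]
        rw [e]
        nlinarith [mul_nonneg (norm_nonneg (app T0 (a j)))
          (sq_nonneg (‖app T (‖app T0 (a j)‖⁻¹ • app T0 (a j))‖ - 1))]
      beta_reduce
      linarith)
  have h4 := zono n s (fun j => ‖app T0 (a j)‖) (fun j => ‖app T0 (a j)‖⁻¹ • app T0 (a j))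
    (fun j => norm_nonneg _) hu
  simp only [htu] at h4
  rw [Pos_image, volume_image_app T0 hT0] at h4
  exact (ENNReal.ofReal_le_ofReal h1).trans h4

/-- zonotope volume from the total length in every position -/
theorem pos {n : ℕ} (hn : 1 ≤ n) {ι : Type} (s : Finset ι) (a : ι → E n) {m : ℝ} (hm : 0 < m)
    (h : ∀ T : Matrix (Fin n) (Fin n) ℝ, |T.det| = 1 → n * m ≤ ∑ j ∈ s, ‖app T (a j)‖) :
    ENNReal.ofReal (m ^ n) ≤ volume (zon s a) := by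
  have hc : Continuous fun c : ℝ => ENNReal.ofReal (c ^ n) :=
    ENNReal.continuous_ofReal.comp (continuous_pow n)
  refine le_of_tendsto ((hc.tendsto m).mono_left (nhdsWithin_le_nhds (s := Set.Iio m))) ?_
  filter_upwards [Ioo_mem_nhdsLT hm] with c hc
  exact Pos_lt hn s a hc.1.le hc.2 h

end Vale.Agent.P237
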