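import Mathlib

/-! Statement-level definitions for P237 (Petty's projection-volume conjecture). -/

namespace Vale.Agent.P237

open MeasureTheory

/-- Lebesgue volume (of the Euclidean structure) of a set in a finite-dimensional real inner
product space, as a real number. -/
noncomputable def evol {V : Type} [NormedAddCommGroup V] [InnerProductSpace ℝ V]
    [FiniteDimensional ℝ V] [MeasurableSpace V] [BorelSpace V] (A : Set V) : ℝ :=
  (volume A).toReal

/-- `(n-1)`-dimensional volume of the orthogonal projection of `K` onto the hyperplane `u^⊥`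
(the hyperplane carries the Lebesgue measure of its Euclidean structure). -/
noncomputable def projVol {V : Type} [NormedAddCommGroup V] [InnerProductSpace ℝ V]
    [FiniteDimensional ℝ V] [MeasurableSpace V] [BorelSpace V] (K : Set V) (u : V) : ℝ :=
  evol ((ℝ ∙ u)ᗮ.orthogonalProjectionOnto '' K)

/-- The projection body: the convex body whose support function on the unit sphere is
`projVol K`. -/
def projBody {V : Type} [NormedAddCommGroup V] [InnerProductSpace ℝ V]
    [FiniteDimensional ℝ V] [MeasurableSpace V] [BorelSpace V] (K : Set V) : Set V :=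
  {x | ∀ u : V, ‖u‖ = 1 → inner ℝ x u ≤ projVol K u}

/-- The polyhedron cut out by the half-spaces `⟨a j, x⟩ ≤ b j`. -/
def polyhedron {V : Type} [NormedAddCommGroup V] [InnerProductSpace ℝ V] {N : ℕ}
    (a : Fin N → V) (b : Fin N → ℝ) : Set V :=
  {x | ∀ j, inner ℝ (a j) x ≤ b j}

/-- Volume of the Euclidean unit ball of `ℝ^m`. -/
noncomputable def kappa (m : ℕ) : ℝ :=
  (volume (Metric.closedBall (0 : EuclideanSpace ℝ (Fin m)) 1)).toReal

end Vale.Agent.P237
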