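import Vale.Agent.P237.Fub
import Vale.Agent.P237.DetId

namespace Vale.Agent.P237

open MeasureTheory

theorem isCompact_zon {n : ℕ} {ι : Type} (s : Finset ι) (a : ι → E n) : IsCompact (zon s a) := by
  have h : zon s a = (fun c : ι → ℝ => ∑ j ∈ s, c j • a j) ''
      Set.pi Set.univ (fun _ => Set.Icc (-(1 / 2) : ℝ) (1 / 2)) := by
    ext x
    constructor
    · rintro ⟨c, hc, rfl⟩
      exact ⟨c, fun j _ => abs_le.1 (hc j), rfl⟩
    · rintro ⟨c, hc, rfl⟩
      exact ⟨c, fun j => abs_le.2 (hc j trivial), rfl⟩
  rw [h]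
  exact (isCompact_univ_pi fun _ => isCompact_Icc).image (by fun_prop)

theorem zon_insert {n : ℕ} {ι : Type} [DecidableEq ι] {s : Finset ι} {j : ι} (hj : j ∉ s)
    (a : ι → E n) {y : E n} (hy : y ∈ zon s a) {c : ℝ} (hc : |c| ≤ 1 / 2) :
    y + c • a j ∈ zon (insert j s) a := by
  obtain ⟨d, hd, rfl⟩ := hy
  refine ⟨Function.update d j c, fun i => ?_, ?_⟩
  · rcases eq_or_ne i j with rfl | hi
    · rwa [Function.update_self]
    · rw [Function.update_of_ne hi]
      exact hd i
  · rw [Finset.sum_insert hj, Function.update_self, add_comm]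
    congr 1
    refine Finset.sum_congr rfl fun i hi => ?_
    rw [Function.update_of_ne (ne_of_mem_of_not_mem hi hj)]

theorem zon_image {n m : ℕ} {ι : Type} (s : Finset ι) (a : ι → E n) (P : E n →ₗ[ℝ] E m) :
    P '' zon s a = zon s fun j => P (a j) := by
  ext x
  constructor
  · rintro ⟨_, ⟨c, hc, rfl⟩, rfl⟩
    exact ⟨c, hc, by simp only [map_sum, map_smul]⟩
  · rintro ⟨c, hc, rfl⟩
    exact ⟨_, ⟨c, hc, rfl⟩, by simp only [map_sum, map_smul]⟩

theorem mom_insert {n : ℕ} {ι : Type} [DecidableEq ι] {s : Finset ι} {j : ι} (hj : j ∉ s)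
    (t : ι → ℝ) (u : ι → E n) :
    mom (insert j s) t u = mom s t u + Matrix.of fun a b => t j * (u j a * u j b) := by
  ext a b
  simp only [mom, Matrix.of_apply, Matrix.add_apply, Finset.sum_insert hj]
  ring

/-- volume of a zonotope dominates the determinant of the second-moment matrix -/
theorem zono (n : ℕ) {ι : Type} (s : Finset ι) (t : ι → ℝ) (u : ι → E n) (ht : ∀ j, 0 ≤ t j)
    (hu : ∀ j, ‖u j‖ ≤ 1) :
    ENNReal.ofReal (mom s t u).det ≤ volume (zon s fun j => t j • u j) := by
  classical
  induction n generalizing s with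
  | zero =>
    have h0 : (0 : E 0) ∈ zon s fun j => t j • u j := ⟨fun _ => 0, fun _ => by norm_num, by simp⟩
    rw [Matrix.det_isEmpty, ENNReal.ofReal_one, volume_euclideanSpace_eq_dirac,
      Measure.dirac_apply_of_mem h0]
  | succ n ih =>
    induction s using Finset.induction_on with
    | empty =>
      have h0 : mom (∅ : Finset ι) t u = 0 := by
        ext a b
        simp [mom]
      rw [h0, Matrix.det_zero, ENNReal.ofReal_zero]
      exact zero_le
    | insert j s hj ihs =>
      rw [mom_insert hj]
      rcases eq_or_ne (u j) 0 with h0 | h0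
      · have h1 : (Matrix.of fun a b => t j * (u j a * u j b)) = 0 := by
          ext a b
          simp [h0]
        rw [h1, add_zero]
        refine ihs.trans (measure_mono fun y hy => ?_)
        have := zon_insert hj (fun j => t j • u j) hy (c := 0) (by norm_num)
        rwa [zero_smul, add_zero] at this
      · have hν : 0 < ‖u j‖ := norm_pos_iff.2 h0
        have hv : ‖(‖u j‖⁻¹ • u j : E (n + 1))‖ = 1 := by
          rw [norm_smul, norm_inv, norm_norm, inv_mul_cancel₀ hν.ne']
        obtain ⟨P, hP1, hP2, hP3⟩ := exists_proj hv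
        have h1 : (Matrix.of fun a b => t j * (u j a * u j b)) =
            Matrix.of fun a b => (t j * ‖u j‖ ^ 2) *
              ((‖u j‖⁻¹ • u j : E (n + 1)) a * (‖u j‖⁻¹ • u j : E (n + 1)) b) := by
          ext a b
          simp only [Matrix.of_apply, PiLp.smul_apply, smul_eq_mul]
          field_simp
        have hτ : 0 ≤ t j * ‖u j‖ := mul_nonneg (ht j) hν.le
        have hτ2 : t j * ‖u j‖ ^ 2 ≤ t j * ‖u j‖ := by
          rw [sq, ← mul_assoc]
          exact mul_le_of_le_one_right hτ (hu j)
        have h2 := ih s (fun j => P (u j)) fun j => (hP1 _).trans (hu j)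
        have h3 : (zon s fun j => t j • P (u j)) = P '' zon s fun j => t j • u j := by
          rw [zon_image]
          simp only [map_smul]
        rw [h3, hP2] at h2
        have h4 := fub_seg (isCompact_zon s fun j => t j • u j) hv hτ
        rw [h1, hP3]
        refine ENNReal.ofReal_add_le.trans (le_trans ?_ (h4.trans (measure_mono ?_)))
        · rw [ENNReal.ofReal_mul (mul_nonneg (ht j) (sq_nonneg _))]
          exact add_le_add ihs (mul_le_mul' (ENNReal.ofReal_le_ofReal hτ2) h2)
        · rintro _ ⟨y, hy, c, hc, rfl⟩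
          have h5 := zon_insert hj (fun j => t j • u j) hy hc
          have h6 : (c * (t j * ‖u j‖)) • (‖u j‖⁻¹ • u j : E (n + 1)) = c • t j • u j := by
            rw [smul_smul, smul_smul]
            congr 1
            field_simp
          rw [h6]
          exact h5

end Vale.Agent.P237
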